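import Mathlib

set_option linter.unusedSectionVars false

/-!
Basic bookkeeping for the count of copies: edges with an endpoint in `T` and all endpoints in
`T ∪ U`, the chain rule, weights, and the sets of partial placements.
-/

namespace Vale.Agent.P064

open Finset

variable {α : Type*} [Fintype α] [DecidableEq α]

open Classical in
/-- Edges of `EF` with an endpoint in `T` and all endpoints in `T ∪ U`. -/
noncomputable def edgesIn (EF : Finset (Sym2 α)) (T U : Finset α) : Finset (Sym2 α) :=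
  EF.filter fun e => (∃ v ∈ e, v ∈ T) ∧ ∀ v ∈ e, v ∈ T ∨ v ∈ U

theorem mem_edgesIn {EF : Finset (Sym2 α)} {T U : Finset α} {e : Sym2 α} :
    e ∈ edgesIn EF T U ↔ e ∈ EF ∧ (∃ v ∈ e, v ∈ T) ∧ ∀ v ∈ e, v ∈ T ∨ v ∈ U := by
  simp [edgesIn]

/-- Chain rule for edge counts. -/
theorem card_edgesIn_union (EF : Finset (Sym2 α)) {T₁ T₂ U : Finset α} (h12 : Disjoint T₁ T₂)
    (h2U : Disjoint T₂ U) :
    (edgesIn EF (T₁ ∪ T₂) U).card = (edgesIn EF T₁ U).card + (edgesIn EF T₂ (U ∪ T₁)).card := by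
  classical
  rw [← card_union_of_disjoint]
  · congr 1
    ext e
    simp only [mem_edgesIn, mem_union]
    constructor
    · rintro ⟨he, ⟨v, hv, hvT⟩, hall⟩
      by_cases h : ∃ w ∈ e, w ∈ T₂
      · right
        refine ⟨he, h, fun w hw => ?_⟩
        rcases hall w hw with (h1 | h1) | h1
        · exact Or.inr (Or.inr h1)
        · exact Or.inl h1
        · exact Or.inr (Or.inl h1)
      · left
        have hnot : ∀ w ∈ e, w ∉ T₂ := fun w hw h' => h ⟨w, hw, h'⟩
        refine ⟨he, ?_, fun w hw => ?_⟩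
        · rcases hvT with h1 | h1
          · exact ⟨v, hv, h1⟩
          · exact absurd h1 (hnot v hv)
        · rcases hall w hw with (h1 | h1) | h1
          · exact Or.inl h1
          · exact absurd h1 (hnot w hw)
          · exact Or.inr h1
    · rintro (⟨he, ⟨v, hv, hvT⟩, hall⟩ | ⟨he, ⟨v, hv, hvT⟩, hall⟩)
      · refine ⟨he, ⟨v, hv, Or.inl hvT⟩, fun w hw => ?_⟩
        rcases hall w hw with h1 | h1
        · exact Or.inl (Or.inl h1)
        · exact Or.inr h1
      · refine ⟨he, ⟨v, hv, Or.inr hvT⟩, fun w hw => ?_⟩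
        rcases hall w hw with h1 | h1 | h1
        · exact Or.inl (Or.inr h1)
        · exact Or.inr h1
        · exact Or.inl (Or.inl h1)
  · rw [Finset.disjoint_left]
    intro e he1 he2
    obtain ⟨_, _, hall⟩ := mem_edgesIn.1 he1
    obtain ⟨_, ⟨v, hv, hvT⟩, _⟩ := mem_edgesIn.1 he2
    rcases hall v hv with h1 | h1
    · exact (Finset.disjoint_left.1 h12 h1) hvT
    · exact (Finset.disjoint_left.1 h2U hvT) h1

/-- The weight of `T` given `U`: `n ^ |T| * r ^ (number of edges counted at T given U)`. -/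
noncomputable def Mw (EF : Finset (Sym2 α)) (r : ℝ) (T U : Finset α) : ℝ :=
  (Fintype.card α : ℝ) ^ T.card * r ^ (edgesIn EF T U).card

theorem Mw_union (EF : Finset (Sym2 α)) (r : ℝ) {T₁ T₂ U : Finset α} (h12 : Disjoint T₁ T₂)
    (h2U : Disjoint T₂ U) :
    Mw EF r (T₁ ∪ T₂) U = Mw EF r T₁ U * Mw EF r T₂ (U ∪ T₁) := by
  unfold Mw
  rw [card_edgesIn_union EF h12 h2U, card_union_of_disjoint h12, pow_add, pow_add]
  ring

theorem Mw_pos (EF : Finset (Sym2 α)) {r : ℝ} (hr : 0 < r) (hn : 0 < Fintype.card α)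
    (T U : Finset α) : 0 < Mw EF r T U := by
  unfold Mw
  have : (0:ℝ) < Fintype.card α := by exact_mod_cast hn
  positivity

open Classical in
/-- Placements of `T` given `U`, extending `ψ`. -/
noncomputable def Rset (EF EH : Finset (Sym2 α)) (T U : Finset α) (ψ : α → α) : Finset (α → α) :=
  Finset.univ.filter fun φ =>
    (∀ x, x ∉ T → φ x = ψ x) ∧ Set.InjOn φ (↑(U ∪ T) : Set α) ∧
      ∀ e ∈ edgesIn EF T U, Sym2.map φ e ∈ EH

theorem mem_Rset {EF EH : Finset (Sym2 α)} {T U : Finset α} {ψ φ : α → α} :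
    φ ∈ Rset EF EH T U ψ ↔ (∀ x, x ∉ T → φ x = ψ x) ∧ Set.InjOn φ (↑(U ∪ T) : Set α) ∧
      ∀ e ∈ edgesIn EF T U, Sym2.map φ e ∈ EH := by
  simp [Rset]

theorem card_Rset_empty_le (EF EH : Finset (Sym2 α)) (U : Finset α) (ψ : α → α) :
    (Rset EF EH ∅ U ψ).card ≤ 1 := by
  rw [Finset.card_le_one]
  intro a ha b hb
  have ha' := (mem_Rset.1 ha).1
  have hb' := (mem_Rset.1 hb).1
  funext x
  rw [ha' x (by simp), hb' x (by simp)]

theorem union_sdiff_singleton_eq {T U : Finset α} {u : α} (hu : u ∈ T) :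
    (U ∪ {u}) ∪ (T \ {u}) = U ∪ T := by
  ext x
  simp only [mem_union, mem_singleton, mem_sdiff]
  by_cases h : x = u
  · subst h; simp [hu]
  · simp [h]

/-- Fixing the value at `u` moves a placement to the smaller problem. -/
theorem mem_Rset_fix {EF EH : Finset (Sym2 α)} {T U : Finset α} {ψ φ : α → α} {u : α}
    (hu : u ∈ T) (hφ : φ ∈ Rset EF EH T U ψ) :
    φ ∈ Rset EF EH (T \ {u}) (U ∪ {u}) (Function.update ψ u (φ u)) := by
  obtain ⟨h1, h2, h3⟩ := mem_Rset.1 hφ
  refine mem_Rset.2 ⟨?_, ?_, ?_⟩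
  · intro x hx
    by_cases hxu : x = u
    · subst hxu; simp
    · rw [Function.update_of_ne hxu]
      apply h1
      intro hxT
      exact hx (by simp [hxT, hxu])
  · rw [union_sdiff_singleton_eq hu]; exact h2
  · intro e he
    obtain ⟨heF, ⟨v, hv, hvT⟩, hall⟩ := mem_edgesIn.1 he
    apply h3
    refine mem_edgesIn.2 ⟨heF, ⟨v, hv, (mem_sdiff.1 hvT).1⟩, fun w hw => ?_⟩
    rcases hall w hw with h | h
    · exact Or.inl (mem_sdiff.1 h).1
    · rcases mem_union.1 h with h' | h'
      · exact Or.inr h'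
      · rw [mem_singleton.1 h']; exact Or.inl hu

/-- Splitting a placement over the value at `u`. -/
theorem Rset_subset_biUnion_fix (EF EH : Finset (Sym2 α)) {T : Finset α} (U : Finset α)
    (ψ : α → α) {u : α} (hu : u ∈ T) (N : Finset α)
    (hN : ∀ φ ∈ Rset EF EH T U ψ, φ u ∈ N) :
    Rset EF EH T U ψ ⊆
      N.biUnion fun x => Rset EF EH (T \ {u}) (U ∪ {u}) (Function.update ψ u x) := by
  intro φ hφ
  exact mem_biUnion.2 ⟨φ u, hN φ hφ, mem_Rset_fix hu hφ⟩

/-- Removing a first block from a placement. -/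
theorem Rset_subset_biUnion_block (EF EH : Finset (Sym2 α)) {S T U : Finset α} (hTS : T ⊆ S)
    (hSU : Disjoint S U) (ψ : α → α) :
    Rset EF EH S U ψ ⊆ (Rset EF EH T U ψ).biUnion fun φ' => Rset EF EH (S \ T) (U ∪ T) φ' := by
  classical
  intro φ hφ
  obtain ⟨h1, h2, h3⟩ := mem_Rset.1 hφ
  have hTU : Disjoint T U := Finset.disjoint_of_subset_left hTS hSU
  refine mem_biUnion.2 ⟨fun x => if x ∈ T then φ x else ψ x, mem_Rset.2 ⟨?_, ?_, ?_⟩,
    mem_Rset.2 ⟨?_, ?_, ?_⟩⟩
  · intro x hx; simp [hx]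
  · have heq : Set.EqOn (fun x => if x ∈ T then φ x else ψ x) φ (↑(U ∪ T) : Set α) := by
      intro x hx
      by_cases hxT : x ∈ T
      · simp [hxT]
      · simp only [hxT, if_false]
        rw [h1 x]
        intro hxS
        simp only [coe_union, Set.mem_union, mem_coe] at hx
        rcases hx with hx | hx
        · exact (Finset.disjoint_left.1 hSU hxS) hx
        · exact hxT hx
    rw [heq.injOn_iff]
    exact h2.mono (by
      intro x hx
      simp only [coe_union, Set.mem_union, mem_coe] at hx ⊢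
      rcases hx with hx | hx
      · exact Or.inl hx
      · exact Or.inr (hTS hx))
  · intro e he
    obtain ⟨heF, ⟨v, hv, hvT⟩, hall⟩ := mem_edgesIn.1 he
    have heq : Sym2.map (fun x => if x ∈ T then φ x else ψ x) e = Sym2.map φ e := by
      apply Sym2.map_congr
      intro x hx
      by_cases hxT : x ∈ T
      · simp [hxT]
      · simp only [hxT, if_false]
        rw [h1 x]
        intro hxS
        rcases hall x hx with h | h
        · exact hxT h
        · exact (Finset.disjoint_left.1 hSU hxS) h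
    rw [heq]
    apply h3
    refine mem_edgesIn.2 ⟨heF, ⟨v, hv, hTS hvT⟩, fun w hw => ?_⟩
    rcases hall w hw with h | h
    · exact Or.inl (hTS h)
    · exact Or.inr h
  · intro x hx
    by_cases hxT : x ∈ T
    · simp [hxT]
    · simp only [hxT, if_false]
      apply h1
      intro hxS
      exact hx (mem_sdiff.2 ⟨hxS, hxT⟩)
  · have : U ∪ T ∪ S \ T = U ∪ S := by
      ext x
      simp only [mem_union, mem_sdiff]
      by_cases hT : x ∈ T
      · simp [hT, hTS hT]
      · simp [hT]
    rw [this]; exact h2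
  · intro e he
    obtain ⟨heF, ⟨v, hv, hvT⟩, hall⟩ := mem_edgesIn.1 he
    apply h3
    refine mem_edgesIn.2 ⟨heF, ⟨v, hv, (mem_sdiff.1 hvT).1⟩, fun w hw => ?_⟩
    rcases hall w hw with h | h
    · exact Or.inl (mem_sdiff.1 h).1
    · rcases mem_union.1 h with h' | h'
      · exact Or.inr h'
      · exact Or.inl (hTS h')

/-- The induced map on unordered pairs is injective on pairs with endpoints in a set where the map
is injective. -/
theorem sym2_map_injOn {φ : α → α} {X : Set α} (hφ : Set.InjOn φ X) {e e' : Sym2 α}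
    (he : ∀ v ∈ e, v ∈ X) (he' : ∀ v ∈ e', v ∈ X) (h : Sym2.map φ e = Sym2.map φ e') : e = e' := by
  induction e using Sym2.ind with
  | _ a b =>
    induction e' using Sym2.ind with
    | _ c d =>
      simp only [Sym2.map_mk, Sym2.eq_iff] at h
      have ha := he a (by simp)
      have hb := he b (by simp)
      have hc := he' c (by simp)
      have hd := he' d (by simp)
      rw [Sym2.eq_iff]
      rcases h with ⟨h1, h2⟩ | ⟨h1, h2⟩
      · exact Or.inl ⟨hφ ha hc h1, hφ hb hd h2⟩
      · exact Or.inr ⟨hφ ha hd h1, hφ hb hc h2⟩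

end Vale.Agent.P064
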