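import Vale.Agent.P064.Rigid

set_option linter.unusedSectionVars false

/-!
The main step: a block `T` of minimal weight has few placements, via a maximal family with
pairwise disjoint images, and the induction over blocks.
-/

namespace Vale.Agent.P064

open Finset

variable {α : Type*} [Fintype α] [DecidableEq α]

theorem succ_pow_le_three (N v : ℕ) (hv : v ≤ N) :
    ((N + 1 : ℕ) : ℝ) ^ v ≤ 3 * (N : ℝ) ^ v := by
  rcases Nat.eq_zero_or_pos N with h0 | hpos
  · subst h0
    have : v = 0 := by omega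
    subst this
    norm_num
  · have hN : (0:ℝ) < N := by exact_mod_cast hpos
    have h1 : (1:ℝ) + 1 / N ≤ Real.exp (1 / N) := by
      have := Real.add_one_le_exp (1 / (N:ℝ))
      linarith
    have h2 : ((1:ℝ) + 1 / N) ^ v ≤ 3 := by
      calc ((1:ℝ) + 1 / N) ^ v ≤ Real.exp (1 / N) ^ v :=
            pow_le_pow_left₀ (by positivity) h1 v
        _ = Real.exp (v * (1 / N)) := by rw [← Real.exp_nat_mul]
        _ ≤ Real.exp 1 := by
            apply Real.exp_le_exp.2
            have : (v:ℝ) ≤ N := by exact_mod_cast hv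
            rw [mul_one_div]
            exact (div_le_one hN).2 this
        _ ≤ 3 := by
            have := Real.exp_one_lt_d9
            linarith
    have h3 : ((N + 1 : ℕ) : ℝ) = N * (1 + 1 / N) := by
      push_cast
      field_simp
    rw [h3, mul_pow]
    calc (N:ℝ) ^ v * (1 + 1 / (N:ℝ)) ^ v ≤ (N:ℝ) ^ v * 3 :=
          mul_le_mul_of_nonneg_left h2 (by positivity)
      _ = 3 * (N : ℝ) ^ v := by ring

theorem pow_mul_factorial_le (m v : ℕ) :
    ((m + v : ℕ) : ℝ) ^ v * (m.factorial : ℝ) ≤ 3 ^ v * ((m + v).factorial : ℝ) := by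
  induction v with
  | zero => simp
  | succ v ih =>
    have h1 := succ_pow_le_three (m + v) v (by omega)
    have hfac : ((m + (v + 1)).factorial : ℝ) = ((m + v + 1 : ℕ) : ℝ) * ((m + v).factorial : ℝ) := by
      rw [← add_assoc, Nat.factorial_succ]
      push_cast
      ring
    rw [hfac, pow_succ, pow_succ]
    have hcast : ((m + (v + 1) : ℕ) : ℝ) = ((m + v + 1 : ℕ) : ℝ) := by
      rw [add_assoc]
    rw [hcast]
    have hpos : (0:ℝ) ≤ ((m + v + 1 : ℕ) : ℝ) := by positivity
    have hm : (0:ℝ) ≤ (m.factorial : ℝ) := by positivity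
    calc ((m + v + 1 : ℕ) : ℝ) ^ v * ((m + v + 1 : ℕ) : ℝ) * (m.factorial : ℝ)
        ≤ (3 * ((m + v : ℕ) : ℝ) ^ v) * ((m + v + 1 : ℕ) : ℝ) * (m.factorial : ℝ) := by
          apply mul_le_mul_of_nonneg_right _ hm
          apply mul_le_mul_of_nonneg_right h1 hpos
      _ = 3 * ((m + v + 1 : ℕ) : ℝ) * (((m + v : ℕ) : ℝ) ^ v * (m.factorial : ℝ)) := by ring
      _ ≤ 3 * ((m + v + 1 : ℕ) : ℝ) * (3 ^ v * ((m + v).factorial : ℝ)) := by
          apply mul_le_mul_of_nonneg_left ih (by positivity)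
      _ = _ := by ring

/-- `t ^ t ≤ 3 ^ t * t !`. -/
theorem self_pow_le (t : ℕ) : (t : ℝ) ^ t ≤ 3 ^ t * (t.factorial : ℝ) := by
  have := pow_mul_factorial_le 0 t
  simpa using this

/-- Arithmetic from the petal bound. -/
theorem petal_arith {n q : ℝ} (hn : 0 < n) (hq : 0 < q) (s e a t : ℕ) (ht : 1 ≤ t)
    (h : (t.factorial : ℝ) / 2 ≤ n ^ (a + t * s) * q ^ (t * e)) :
    (t : ℝ) * 4 ^ e < 3 * (n ^ s * (16 * q) ^ e) ∨ (4:ℝ) ^ (e * t) ≤ 2 * n ^ a := by
  by_cases h1 : (t : ℝ) * 4 ^ e < 3 * (n ^ s * (16 * q) ^ e)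
  · exact Or.inl h1
  · right
    push Not at h1
    have htR : (0:ℝ) < t := by exact_mod_cast ht
    have hself := self_pow_le t
    have h16 : (16 * q) ^ e = 4 ^ e * (4 ^ e * q ^ e) := by
      have : 16 * q = 4 * (4 * q) := by ring
      rw [this, mul_pow, mul_pow]
    have h4 : (0:ℝ) < 4 ^ e := by positivity
    have h2 : 3 * (n ^ s * q ^ e) * 4 ^ e ≤ t := by
      rw [h16] at h1
      have : 4 ^ e * (3 * (n ^ s * q ^ e) * 4 ^ e) ≤ 4 ^ e * (t : ℝ) := by
        calc _ = 3 * (n ^ s * (4 ^ e * (4 ^ e * q ^ e))) := by ring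
          _ ≤ (t : ℝ) * 4 ^ e := h1
          _ = _ := by ring
      exact le_of_mul_le_mul_left this h4
    have h3 : (3 * (n ^ s * q ^ e) * 4 ^ e) ^ t ≤ (t : ℝ) ^ t :=
      pow_le_pow_left₀ (by positivity) h2 t
    have h5 : (t : ℝ) ^ t ≤ 3 ^ t * (2 * (n ^ (a + t * s) * q ^ (t * e))) := by
      refine hself.trans ?_
      apply mul_le_mul_of_nonneg_left _ (by positivity)
      linarith
    have h6 : (3 * (n ^ s * q ^ e) * 4 ^ e) ^ t * 4 ^ (e * t) * 0 = 0 := by ring
    have h7 : 3 ^ t * (2 * (n ^ (a + t * s) * q ^ (t * e))) =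
        2 * n ^ a * (3 * (n ^ s * q ^ e)) ^ t := by
      rw [pow_add, mul_pow, mul_pow, ← pow_mul, ← pow_mul, mul_comm s t, mul_comm e t]
      ring
    have h8 : (3 * (n ^ s * q ^ e) * 4 ^ e) ^ t = (3 * (n ^ s * q ^ e)) ^ t * 4 ^ (e * t) := by
      rw [mul_pow, ← pow_mul]
    have hpos : 0 < (3 * (n ^ s * q ^ e)) ^ t := by positivity
    have h9 : (3 * (n ^ s * q ^ e)) ^ t * 4 ^ (e * t) ≤ (3 * (n ^ s * q ^ e)) ^ t * (2 * n ^ a) := by
      calc _ = (3 * (n ^ s * q ^ e) * 4 ^ e) ^ t := h8.symm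
        _ ≤ (t : ℝ) ^ t := h3
        _ ≤ _ := h5
        _ = _ := by rw [h7]; ring
    exact le_of_mul_le_mul_left h9 hpos

theorem succ_sq_le_four_pow (e : ℕ) (he : 1 ≤ e) : (e + 1) ^ 2 ≤ 4 ^ e := by
  induction e, he using Nat.le_induction with
  | base => norm_num
  | succ e he ih =>
    rw [pow_succ 4 e]
    nlinarith

theorem sq_le_six_pow (s : ℕ) : s ^ 2 ≤ 6 ^ s := by
  induction s with
  | zero => norm_num
  | succ s ih =>
    rw [pow_succ 6 s]
    have h1 : 1 ≤ 6 ^ s := Nat.one_le_pow _ _ (by norm_num)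
    have h2 : s ≤ s ^ 2 := by nlinarith
    nlinarith

/-- The hereditary property of a block of minimal weight. -/
theorem P_of_min {EF : Finset (Sym2 α)} {r : ℝ} (hr : 0 < r) (hn : 0 < Fintype.card α)
    {T U : Finset α} (hTU : Disjoint T U)
    (hmin : ∀ C ⊆ T, C.Nonempty → C ≠ T → Mw EF r T U < Mw EF r C U) :
    ∀ C ⊆ T, C.Nonempty → C ≠ T → Mw EF r C (U ∪ (T \ C)) < 1 := by
  intro C hC hne hCT
  have hD : (T \ C) ⊆ T := sdiff_subset
  have hDne : (T \ C).Nonempty := by
    by_contra h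
    rw [not_nonempty_iff_eq_empty, sdiff_eq_empty_iff_subset] at h
    exact hCT (Subset.antisymm hC h)
  have hDT : T \ C ≠ T := by
    intro h
    obtain ⟨x, hx⟩ := hne
    have : x ∈ T \ C := by rw [h]; exact hC hx
    exact (mem_sdiff.1 this).2 hx
  have h1 := hmin _ hD hDne hDT
  have h2 := Mw_union EF r (T₁ := T \ C) (T₂ := C) (U := U) sdiff_disjoint
    (Finset.disjoint_of_subset_left hC hTU)
  rw [sdiff_union_of_subset hC] at h2
  have hpos := Mw_pos EF hr hn (T \ C) U
  by_contra hcon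
  push Not at hcon
  nlinarith

theorem P_sub {EF : Finset (Sym2 α)} {r : ℝ} (hr : 0 < r) (hn : 0 < Fintype.card α)
    {T U : Finset α} (hTU : Disjoint T U)
    (hmin : ∀ C ⊆ T, C.Nonempty → C ≠ T → Mw EF r T U < Mw EF r C U) {w : α} (hw : w ∈ T) :
    ∀ C ⊆ T \ {w}, C.Nonempty → Mw EF r C ((U ∪ {w}) ∪ ((T \ {w}) \ C)) ≤ 1 := by
  intro C hC hne
  have hCT : C ⊆ T := hC.trans sdiff_subset
  have hwC : w ∉ C := fun h => (mem_sdiff.1 (hC h)).2 (by simp)
  have : (U ∪ {w}) ∪ ((T \ {w}) \ C) = U ∪ (T \ C) := by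
    ext x
    simp only [mem_union, mem_singleton, mem_sdiff]
    by_cases hxu : x = w
    · subst hxu
      simp [hw, hwC]
    · simp [hxu]
  rw [this]
  exact (P_of_min hr hn hTU hmin C hCT hne (fun h => hwC (h ▸ hw))).le

/-- Core bound for a block of minimal weight exceeding one. -/
theorem core {EF EH : Finset (Sym2 α)} {q Λ : ℝ} (hq : 0 < q) (hq1 : 16 * q < 1)
    (hE : ∀ J ⊆ EH, J.Nonempty → (1 / 2 : ℝ) ≤ ((orbit J).card : ℝ) * q ^ J.card)
    (hn : 2 ≤ Fintype.card α) (hΛ1 : 1 ≤ Λ)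
    (hΛ2 : ∀ E a : ℕ, (4:ℝ) ^ E ≤ 2 * (Fintype.card α : ℝ) ^ a → 2 * (E:ℝ) ≤ 1 + a * Λ)
    {T U : Finset α} (hTU : Disjoint T U) (hT : T.Nonempty)
    (hmin : ∀ C ⊆ T, C.Nonempty → C ≠ T → Mw EF (16 * q) T U < Mw EF (16 * q) C U)
    (hM : 1 < Mw EF (16 * q) T U) (ψ : α → α) :
    ((Rset EF EH T U ψ).card : ℝ) ≤ Mw EF (16 * q) T U * (6 * Λ) ^ (edgesIn EF T U).card := by
  classical
  have hr : (0:ℝ) < 16 * q := by positivity
  have hnpos : 0 < Fintype.card α := by omega
  have hnR : (0:ℝ) < Fintype.card α := by exact_mod_cast hnpos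
  have hn1R : (1:ℝ) ≤ Fintype.card α := by exact_mod_cast hnpos
  have hΛ0 : (0:ℝ) < Λ := by linarith
  have hK1 : (1:ℝ) ≤ 6 * Λ := by linarith
  by_cases hne : (Rset EF EH T U ψ).Nonempty
  swap
  · rw [not_nonempty_iff_eq_empty.1 hne]
    simp only [card_empty, Nat.cast_zero]
    have := Mw_pos EF hr hnpos T U
    positivity
  obtain ⟨φ₀, hφ₀⟩ := hne
  set s := T.card with hs
  set e := (edgesIn EF T U).card with he
  have hspos : 1 ≤ s := card_pos.2 hT
  -- the rigid bound for the pieces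
  have hcardsub : ∀ w ∈ T, (T \ {w}).card = s - 1 := by
    intro w hw
    rw [card_sdiff_of_subset (singleton_subset_iff.2 hw)]
    simp [hs]
  have hrig := fun (w : α) (hw : w ∈ T) (x : α) =>
    rigid (EF := EF) (EH := EH) hq hq1 hE hn hΛ1 hΛ2 (s - 1) (T \ {w}) (U ∪ {w})
      (Function.update ψ w x) (hcardsub w hw) (disjoint_sdiff_union hTU) (P_sub hr hnpos hTU hmin hw)
  -- `s ≤ e + 1`, and more precisely the count at `w`
  have hse : ∀ w ∈ T, s - 1 ≤ (edgesIn EF (T \ {w}) (U ∪ {w})).card := by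
    intro w hw
    have := (hrig w hw (φ₀ w)).2 ⟨φ₀, mem_Rset_fix hw hφ₀⟩
    rwa [hcardsub w hw] at this
  obtain ⟨w₀, hw₀⟩ := hT
  have hsple : s ≤ e + 1 := by
    have h1 := hse w₀ hw₀
    have h2 := card_edgesIn_split EF hw₀ hTU
    omega
  have hMval : Mw EF (16 * q) T U = (Fintype.card α : ℝ) ^ s * (16 * q) ^ e := rfl
  rcases Nat.eq_zero_or_pos e with he0 | hepos
  · -- no edges: a single vertex
    have hs1 : s = 1 := by omega
    have hsub := Rset_subset_biUnion_fix EF EH U ψ hw₀ (Finset.univ : Finset α) (fun _ _ => mem_univ _)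
    have hle : ((Rset EF EH T U ψ).card : ℝ) ≤ Fintype.card α := by
      calc ((Rset EF EH T U ψ).card : ℝ)
          ≤ (((Finset.univ : Finset α).biUnion fun x => Rset EF EH (T \ {w₀}) (U ∪ {w₀}) (Function.update ψ w₀ x)).card : ℝ) := by
            exact_mod_cast card_le_card hsub
        _ ≤ ∑ x ∈ (Finset.univ : Finset α), ((Rset EF EH (T \ {w₀}) (U ∪ {w₀}) (Function.update ψ w₀ x)).card : ℝ) := by
            exact_mod_cast card_biUnion_le
        _ ≤ ∑ _x ∈ (Finset.univ : Finset α), (1:ℝ) := by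
            apply Finset.sum_le_sum
            intro x _
            have := (hrig w₀ hw₀ x).1
            rw [hcardsub w₀ hw₀, hs1] at this
            simpa using this
        _ = Fintype.card α := by simp [Finset.card_univ]
    rw [hMval, he0, hs1]
    simpa using hle
  -- the maximal family
  set fam := (Rset EF EH T U ψ).powerset.filter
    (fun D : Finset (α → α) => (↑D : Set (α → α)).PairwiseDisjoint (fun φ => T.image φ)) with hfam
  have hfamne : fam.Nonempty := ⟨∅, mem_filter.2 ⟨empty_mem_powerset _, by simp⟩⟩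
  obtain ⟨D, hDmem, hDmax⟩ := Finset.exists_max_image fam Finset.card hfamne
  obtain ⟨hDsub, hDpw⟩ := mem_filter.1 hDmem
  have hDsub' : D ⊆ Rset EF EH T U ψ := mem_powerset.1 hDsub
  have hhit : ∀ φ ∈ Rset EF EH T U ψ, ∃ φ' ∈ D, ¬ Disjoint (T.image φ) (T.image φ') := by
    intro φ hφ
    by_contra hcon
    push Not at hcon
    have hφD : φ ∉ D := by
      intro h
      have := hcon φ h
      rw [disjoint_self_iff_empty] at this
      have h' : (T.image φ).Nonempty := ⟨φ w₀, mem_image_of_mem _ hw₀⟩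
      rw [this] at h'
      simp at h'
    have hins : insert φ D ∈ fam := by
      refine mem_filter.2 ⟨mem_powerset.2 (insert_subset hφ hDsub'), ?_⟩
      rw [coe_insert]
      apply hDpw.insert
      intro b hb _
      exact hcon b hb
    have := hDmax _ hins
    rw [card_insert_of_notMem hφD] at this
    omega
  set t := D.card with ht
  have htpos : 1 ≤ t := by
    obtain ⟨φ', hφ', _⟩ := hhit φ₀ hφ₀
    exact card_pos.2 ⟨φ', hφ'⟩
  set W := D.biUnion fun φ => T.image φ with hW
  have hWcard : W.card ≤ t * s := by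
    refine card_biUnion_le.trans ?_
    calc ∑ φ ∈ D, (T.image φ).card ≤ ∑ _φ ∈ D, s := by
          apply Finset.sum_le_sum
          intro φ _
          exact card_image_le
      _ = t * s := by simp [ht]
  have hcover : Rset EF EH T U ψ ⊆ T.biUnion fun w => W.biUnion fun z =>
      Rset EF EH (T \ {w}) (U ∪ {w}) (Function.update ψ w z) := by
    intro φ hφ
    obtain ⟨φ', hφ', hdis⟩ := hhit φ hφ
    obtain ⟨z, hz1, hz2⟩ := Finset.not_disjoint_iff.1 hdis
    obtain ⟨w, hw, rfl⟩ := mem_image.1 hz1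
    refine mem_biUnion.2 ⟨w, hw, mem_biUnion.2 ⟨φ w, mem_biUnion.2 ⟨φ', hφ', hz2⟩, ?_⟩⟩
    exact mem_Rset_fix hw hφ
  have hΛs : (0:ℝ) ≤ Λ ^ (s - 1) := by positivity
  have hRle : ((Rset EF EH T U ψ).card : ℝ) ≤ (t : ℝ) * (s : ℝ) ^ 2 * Λ ^ (s - 1) := by
    calc ((Rset EF EH T U ψ).card : ℝ)
        ≤ ((T.biUnion fun w => W.biUnion fun z =>
            Rset EF EH (T \ {w}) (U ∪ {w}) (Function.update ψ w z)).card : ℝ) := by
          exact_mod_cast card_le_card hcover
      _ ≤ ∑ w ∈ T, ((W.biUnion fun z =>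
            Rset EF EH (T \ {w}) (U ∪ {w}) (Function.update ψ w z)).card : ℝ) := by
          exact_mod_cast card_biUnion_le
      _ ≤ ∑ _w ∈ T, ((t : ℝ) * s * Λ ^ (s - 1)) := by
          apply Finset.sum_le_sum
          intro w hw
          calc ((W.biUnion fun z =>
                Rset EF EH (T \ {w}) (U ∪ {w}) (Function.update ψ w z)).card : ℝ)
              ≤ ∑ z ∈ W, ((Rset EF EH (T \ {w}) (U ∪ {w}) (Function.update ψ w z)).card : ℝ) := by
                exact_mod_cast card_biUnion_le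
            _ ≤ ∑ _z ∈ W, Λ ^ (s - 1) := by
                apply Finset.sum_le_sum
                intro z _
                have := (hrig w hw z).1
                rwa [hcardsub w hw] at this
            _ = (W.card : ℝ) * Λ ^ (s - 1) := by rw [Finset.sum_const, nsmul_eq_mul]
            _ ≤ (t : ℝ) * s * Λ ^ (s - 1) := by
                apply mul_le_mul_of_nonneg_right _ hΛs
                exact_mod_cast hWcard
      _ = (t : ℝ) * (s : ℝ) ^ 2 * Λ ^ (s - 1) := by
          rw [Finset.sum_const, nsmul_eq_mul, ← hs]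
          ring
  -- the attachments
  set A := U.filter fun y => ∃ u ∈ T, s(u, y) ∈ EF with hA
  set A0 := A.image ψ with hA0
  have hA0card : A0.card ≤ A.card := card_image_le
  have hmemD : ∀ i : D, (i : α → α) ∈ Rset EF EH T U ψ := fun i => hDsub' i.2
  have hoffT : ∀ i : D, ∀ y ∈ U, (i : α → α) y = ψ y := fun i y hy =>
    (mem_Rset.1 (hmemD i)).1 y (fun h => (Finset.disjoint_left.1 hTU h) hy)
  have hinj : ∀ i j : D, ∀ x ∈ T, ∀ y ∈ T, (i : α → α) x = (j : α → α) y → i = j ∧ x = y := by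
    intro i j x hx y hy hxy
    have hij : i = j := by
      by_contra hne
      have hne' : (i : α → α) ≠ (j : α → α) := fun h => hne (Subtype.ext h)
      have hd := hDpw i.2 j.2 hne'
      simp only [Function.onFun] at hd
      exact (Finset.disjoint_left.1 hd (mem_image_of_mem _ hx))
        (by rw [hxy]; exact mem_image_of_mem _ hy)
    subst hij
    refine ⟨rfl, ?_⟩
    apply (mem_Rset.1 (hmemD i)).2.1 _ _ hxy
    · simp [hx]
    · simp [hy]
  have hA0av : ∀ i : D, ∀ x ∈ T, (i : α → α) x ∉ A0 := by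
    intro i x hx hmem
    obtain ⟨y, hy, hyx⟩ := mem_image.1 hmem
    have hyU : y ∈ U := (mem_filter.1 hy).1
    have : x = y := by
      apply (mem_Rset.1 (hmemD i)).2.1
      · simp [hx]
      · simp [hyU]
      · rw [hoffT i y hyU, hyx]
    subst this
    exact (Finset.disjoint_left.1 hTU hx) hyU
  have hoff : ∀ f ∈ edgesIn EF T U, ∀ v ∈ f, v ∉ T →
      (∀ i : D, (i : α → α) v ∈ A0) ∧ ∀ i j : D, (i : α → α) v = (j : α → α) v := by
    intro f hf v hv hvT
    obtain ⟨_, _, hall⟩ := mem_edgesIn.1 hf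
    have hvU : v ∈ U := by
      rcases hall v hv with h | h
      · exact absurd h hvT
      · exact h
    constructor
    · intro i
      rw [hoffT i v hvU]
      obtain ⟨u, hu, huv⟩ := attached_of_mem hTU hf hv hvU
      exact mem_image_of_mem _ (mem_filter.2 ⟨hvU, u, hu, huv⟩)
    · intro i j
      rw [hoffT i v hvU, hoffT j v hvU]
  have hpet := petal_bound T A0 ⟨w₀, hw₀⟩ (fun i : D => (i : α → α)) (edgesIn EF T U) hinj hA0av hoff
  set J := Finset.univ.biUnion fun i : D => (edgesIn EF T U).image (Sym2.map (i : α → α)) with hJ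
  have hJsub : J ⊆ EH := by
    intro f hf
    obtain ⟨i, -, hi⟩ := mem_biUnion.1 hf
    obtain ⟨g, hg, rfl⟩ := mem_image.1 hi
    exact (mem_Rset.1 (hmemD i)).2.2 g hg
  have hedge_inj : ∀ i : D, ((edgesIn EF T U).image (Sym2.map (i : α → α))).card = e := by
    intro i
    apply card_image_of_injOn
    intro f hf f' hf' hff
    have hsub : ∀ g ∈ edgesIn EF T U, ∀ v ∈ g, v ∈ (↑(U ∪ T) : Set α) := by
      intro g hg v hv
      obtain ⟨_, _, hall⟩ := mem_edgesIn.1 hg
      simp only [coe_union, Set.mem_union, mem_coe]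
      rcases hall v hv with h | h
      · exact Or.inr h
      · exact Or.inl h
    exact sym2_map_injOn (mem_Rset.1 (hmemD i)).2.1 (hsub f hf) (hsub f' hf') hff
  have hJcard : J.card = t * e := by
    rw [hJ, card_biUnion]
    · simp only [hedge_inj]
      simp [ht]
    · intro i _ j _ hij
      simp only [Function.onFun]
      rw [Finset.disjoint_left]
      intro f hf hf'
      obtain ⟨g, hg, rfl⟩ := mem_image.1 hf
      obtain ⟨g', hg', hgg⟩ := mem_image.1 hf'
      obtain ⟨_, ⟨v, hv, hvT⟩, _⟩ := mem_edgesIn.1 hg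
      have hmem : (i : α → α) v ∈ Sym2.map (j : α → α) g' := by
        rw [hgg]
        exact Sym2.mem_map.2 ⟨v, hv, rfl⟩
      obtain ⟨v', hv', hvv⟩ := Sym2.mem_map.1 hmem
      by_cases hv'T : v' ∈ T
      · exact hij (hinj j i v' hv'T v hvT hvv).1.symm
      · have := (hoff g' hg' v' hv' hv'T).1 j
        rw [hvv] at this
        exact hA0av i v hvT this
  have hJne : J.Nonempty := by
    rw [← card_pos, hJcard]
    exact Nat.mul_pos htpos hepos
  have hfact : (t.factorial : ℝ) / 2 ≤ (Fintype.card α : ℝ) ^ (A0.card + t * s) * q ^ (t * e) := by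
    have h1 := hE J hJsub hJne
    rw [hJcard] at h1
    have h2 : ((orbit J).card : ℝ) * (t.factorial : ℝ) ≤ (Fintype.card α : ℝ) ^ (A0.card + t * s) := by
      have h3 : (orbit J).card * (Fintype.card D).factorial ≤
          Fintype.card α ^ (A0.card + Fintype.card D * T.card) := hpet
      rw [Fintype.card_coe] at h3
      exact_mod_cast h3
    have h4 : (0:ℝ) ≤ (t.factorial : ℝ) := by positivity
    have h5 : (0:ℝ) ≤ q ^ (t * e) := by positivity
    calc (t.factorial : ℝ) / 2 = (1 / 2) * (t.factorial : ℝ) := by ring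
      _ ≤ (((orbit J).card : ℝ) * q ^ (t * e)) * (t.factorial : ℝ) :=
          mul_le_mul_of_nonneg_right h1 h4
      _ = (((orbit J).card : ℝ) * (t.factorial : ℝ)) * q ^ (t * e) := by ring
      _ ≤ _ := mul_le_mul_of_nonneg_right h2 h5
  have hMpos : 0 < Mw EF (16 * q) T U := by linarith
  have hpow6 : (0:ℝ) < (6 * Λ) ^ e := by positivity
  rcases petal_arith hnR hq s e A0.card t htpos hfact with hsmall | hbig
  · -- few petals
    rw [← hMval] at hsmall
    have hs2 : (s : ℝ) ^ 2 ≤ 4 ^ e := by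
      have h1 : s ^ 2 ≤ 4 ^ e := (Nat.pow_le_pow_left hsple 2).trans (succ_sq_le_four_pow e hepos)
      exact_mod_cast h1
    have hΛe : Λ ^ (s - 1) ≤ Λ ^ e := pow_le_pow_right₀ hΛ1 (by omega)
    have h4e : (0:ℝ) < 4 ^ e := by positivity
    have h5 : (t : ℝ) * (s : ℝ) ^ 2 ≤ 3 * Mw EF (16 * q) T U := by
      have : (t : ℝ) * (s : ℝ) ^ 2 * 4 ^ e ≤ 3 * Mw EF (16 * q) T U * 4 ^ e := by
        calc (t : ℝ) * (s : ℝ) ^ 2 * 4 ^ e = ((t : ℝ) * 4 ^ e) * (s : ℝ) ^ 2 := by ring
          _ ≤ (3 * Mw EF (16 * q) T U) * 4 ^ e := by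
              apply mul_le_mul hsmall.le hs2 (by positivity) (by positivity)
      exact le_of_mul_le_mul_right this h4e
    have h6e : (3:ℝ) ≤ 6 ^ e := by
      calc (3:ℝ) ≤ 6 ^ 1 := by norm_num
        _ ≤ 6 ^ e := pow_le_pow_right₀ (by norm_num) hepos
    calc ((Rset EF EH T U ψ).card : ℝ) ≤ (t : ℝ) * (s : ℝ) ^ 2 * Λ ^ (s - 1) := hRle
      _ ≤ (3 * Mw EF (16 * q) T U) * Λ ^ e := by
          apply mul_le_mul h5 hΛe hΛs (by positivity)
      _ = Mw EF (16 * q) T U * (3 * Λ ^ e) := by ring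
      _ ≤ Mw EF (16 * q) T U * (6 ^ e * Λ ^ e) := by
          apply mul_le_mul_of_nonneg_left _ hMpos.le
          apply mul_le_mul_of_nonneg_right h6e (by positivity)
      _ = Mw EF (16 * q) T U * (6 * Λ) ^ e := by rw [mul_pow]
  · -- many petals: the sunflower is impossible unless there are at most Λ of them
    have h2E := hΛ2 _ _ hbig
    have hetR : (1:ℝ) ≤ ((e * t : ℕ) : ℝ) := by
      exact_mod_cast Nat.mul_pos hepos htpos
    rcases A.eq_empty_or_nonempty with hAemp | hAne
    · exfalso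
      have : A0.card = 0 := by
        rw [hA0, hAemp]; simp
      rw [this] at h2E
      simp only [Nat.cast_zero, zero_mul, add_zero] at h2E
      linarith
    · obtain ⟨y, hyA⟩ := hAne
      obtain ⟨hyU, u, hu, huy⟩ := mem_filter.1 hyA
      have heges : s ≤ e := by
        have h1 := hse u hu
        have h2 := card_edgesIn_split EF hu hTU
        have h3 : 1 ≤ (edgesIn EF {u} U).card := by
          apply card_pos.2
          refine ⟨s(u, y), mem_edgesIn.2 ⟨huy, ⟨u, by simp, by simp⟩, fun w hw => ?_⟩⟩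
          rcases Sym2.mem_iff.1 hw with rfl | rfl
          · exact Or.inl (by simp)
          · exact Or.inr hyU
        omega
      -- attachments are at most the edges
      have hAe : A.card ≤ e := by
        have hch : ∀ z ∈ A, ∃ u ∈ T, s(u, z) ∈ EF := fun z hz => (mem_filter.1 hz).2
        choose! c hc1 hc2 using hch
        apply Finset.card_le_card_of_injOn (fun z => s(c z, z))
        · intro z hz
          have hzA : z ∈ A := mem_coe.1 hz
          have hzU := (mem_filter.1 hzA).1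
          refine mem_coe.2 (mem_edgesIn.2 ⟨hc2 z hzA, ⟨c z, by simp, hc1 z hzA⟩, fun w hw => ?_⟩)
          rcases Sym2.mem_iff.1 hw with rfl | rfl
          · exact Or.inl (hc1 z hzA)
          · exact Or.inr hzU
        · intro z hz z' hz' hzz
          have hzA : z ∈ A := mem_coe.1 hz
          have hzA' : z' ∈ A := mem_coe.1 hz'
          have hzU := (mem_filter.1 hzA).1
          have hzU' := (mem_filter.1 hzA').1
          rcases Sym2.eq_iff.1 hzz with ⟨_, h2⟩ | ⟨h1, _⟩
          · exact h2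
          · exfalso
            have h9 := hc1 z hzA
            rw [h1] at h9
            exact (Finset.disjoint_left.1 hTU h9) hzU'
      have haeR : (A0.card : ℝ) ≤ e := by exact_mod_cast (hA0card.trans hAe)
      have heR : (1:ℝ) ≤ e := by exact_mod_cast hepos
      have htΛ : (t : ℝ) ≤ Λ := by
        have h3 : 2 * (e : ℝ) * t ≤ 1 + e * Λ := by
          have h4 : ((e * t : ℕ) : ℝ) = (e : ℝ) * t := by push_cast; ring
          rw [h4] at h2E
          have h5 : (A0.card : ℝ) * Λ ≤ e * Λ := mul_le_mul_of_nonneg_right haeR hΛ0.le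
          linarith
        have h6 : (1:ℝ) ≤ e * Λ := by nlinarith
        have h7 : 2 * (e : ℝ) * t ≤ 2 * (e : ℝ) * Λ := by linarith
        exact le_of_mul_le_mul_left h7 (by linarith)
      have hs6 : (s : ℝ) ^ 2 ≤ 6 ^ s := by exact_mod_cast sq_le_six_pow s
      calc ((Rset EF EH T U ψ).card : ℝ) ≤ (t : ℝ) * (s : ℝ) ^ 2 * Λ ^ (s - 1) := hRle
        _ ≤ Λ * (s : ℝ) ^ 2 * Λ ^ (s - 1) := by
            apply mul_le_mul_of_nonneg_right _ hΛs
            apply mul_le_mul_of_nonneg_right htΛ (by positivity)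
        _ = (s : ℝ) ^ 2 * (Λ * Λ ^ (s - 1)) := by ring
        _ = (s : ℝ) ^ 2 * Λ ^ s := by
            congr 1
            rw [← pow_succ']
            congr 1
            omega
        _ ≤ 6 ^ s * Λ ^ s := by
            apply mul_le_mul_of_nonneg_right hs6 (by positivity)
        _ = (6 * Λ) ^ s := by rw [mul_pow]
        _ ≤ (6 * Λ) ^ e := pow_le_pow_right₀ hK1 heges
        _ ≤ Mw EF (16 * q) T U * (6 * Λ) ^ e := by
            have : 1 * (6 * Λ) ^ e ≤ Mw EF (16 * q) T U * (6 * Λ) ^ e :=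
              mul_le_mul_of_nonneg_right hM.le hpow6.le
            linarith

end Vale.Agent.P064
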