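import Vale.Agent.P064.Main

set_option linter.unusedSectionVars false

/-!
From placements to copies.
-/

namespace Vale.Agent.P064

open Finset

variable {α : Type*} [Fintype α] [DecidableEq α]

/-- Permutations fixing `Y` pointwise. -/
theorem card_fix (Y : Finset α) :
    (Finset.univ.filter fun ρ : Equiv.Perm α => ∀ x ∈ Y, ρ x = x).card =
      (Fintype.card α - Y.card).factorial := by
  classical
  have h1 : Fintype.card {f : Equiv.Perm α // ∀ a, ¬ (a ∉ Y) → f a = a} =
      (Fintype.card {x // x ∉ Y}).factorial := by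
    rw [← Fintype.card_congr (Equiv.Perm.subtypeEquivSubtypePerm (fun a => a ∉ Y)),
      Fintype.card_perm]
  have hc : Fintype.card {x // x ∉ Y} = Fintype.card α - Y.card := by
    rw [Fintype.card_subtype_compl]
    simp
  rw [hc] at h1
  rw [← h1, Fintype.card_subtype]
  congr 1
  ext ρ
  simp

/-- Permutations with prescribed values on `Y`. -/
theorem card_agree_le (Y : Finset α) (g : α → α) :
    (Finset.univ.filter fun σ : Equiv.Perm α => ∀ x ∈ Y, σ x = g x).card ≤
      (Fintype.card α - Y.card).factorial := by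
  classical
  rcases (Finset.univ.filter fun σ : Equiv.Perm α => ∀ x ∈ Y, σ x = g x).eq_empty_or_nonempty
    with h0 | ⟨σ₀, hσ₀⟩
  · rw [h0]; simp
  · rw [← card_fix Y]
    apply Finset.card_le_card_of_injOn (fun σ => σ₀⁻¹ * σ)
    · intro σ hσ
      have hσ' := (mem_filter.1 (mem_coe.1 hσ)).2
      have hσ₀' := (mem_filter.1 hσ₀).2
      refine mem_coe.2 (mem_filter.2 ⟨mem_univ _, fun x hx => ?_⟩)
      simp only [Equiv.Perm.coe_mul, Function.comp]
      rw [hσ' x hx, ← hσ₀' x hx]
      simp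
    · intro σ _ τ _ h
      exact mul_left_cancel h

/-- The number of permutations sending `F` into `EH`. -/
theorem card_perms_le {F EH : Finset (Sym2 α)} {q Λ : ℝ} (hq : 0 < q) (hq1 : 16 * q < 1)
    (hE : ∀ J ⊆ EH, J.Nonempty → (1 / 2 : ℝ) ≤ ((orbit J).card : ℝ) * q ^ J.card)
    (hF : F ⊆ EH)
    (hn : 2 ≤ Fintype.card α) (hΛ1 : 1 ≤ Λ)
    (hΛ2 : ∀ E a : ℕ, (4:ℝ) ^ E ≤ 2 * (Fintype.card α : ℝ) ^ a → 2 * (E:ℝ) ≤ 1 + a * Λ) :
    ((Finset.univ.filter fun σ : Equiv.Perm α => F.image (Sym2.map σ) ⊆ EH).card : ℝ) ≤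
      ((Fintype.card α).factorial : ℝ) * (864 * Λ * q) ^ F.card := by
  classical
  set P := Finset.univ.filter fun σ : Equiv.Perm α => F.image (Sym2.map σ) ⊆ EH with hP
  set v := (verts F).card with hv
  have hvle : v ≤ Fintype.card α := card_le_univ _
  let f : Equiv.Perm α → (α → α) := fun σ x => if x ∈ verts F then σ x else x
  have hfmem : ∀ σ ∈ P, f σ ∈ Rset F EH (verts F) ∅ id := by
    intro σ hσ
    have hσ' := (mem_filter.1 hσ).2
    refine mem_Rset.2 ⟨?_, ?_, ?_⟩
    · intro x hx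
      simp [f, hx]
    · intro a ha b hb hab
      simp only [empty_union, mem_coe] at ha hb
      simp only [f, ha, hb, if_true] at hab
      exact σ.injective hab
    · intro e he
      rw [edgesIn_verts] at he
      have : Sym2.map (f σ) e = Sym2.map σ e := by
        apply Sym2.map_congr
        intro x hx
        have : x ∈ verts F := mem_verts.2 ⟨e, he, hx⟩
        simp [f, this]
      rw [this]
      exact hσ' (mem_image_of_mem _ he)
  have hfib : ∀ g ∈ Rset F EH (verts F) ∅ id, (P.filter fun σ => f σ = g).card ≤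
      (Fintype.card α - v).factorial := by
    intro g _
    refine le_trans (card_le_card ?_) (card_agree_le (verts F) g)
    intro σ hσ
    obtain ⟨_, hσg⟩ := mem_filter.1 hσ
    refine mem_filter.2 ⟨mem_univ _, fun x hx => ?_⟩
    rw [← hσg]
    simp [f, hx]
  have hcount := Finset.card_le_mul_card_image_of_maps_to hfmem _ hfib
  have hplace := placements_bound hq hq1 hE hF hn hΛ1 hΛ2
  have h3 := pow_mul_factorial_le (Fintype.card α - v) v
  rw [Nat.sub_add_cancel hvle] at h3
  have hΛ0 : (0:ℝ) < Λ := by linarith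
  have hX : (0:ℝ) ≤ 96 * Λ * q := by positivity
  have h3v : (3:ℝ) ^ v ≤ 9 ^ F.card := by
    calc (3:ℝ) ^ v ≤ 3 ^ (2 * F.card) := pow_le_pow_right₀ (by norm_num) (card_verts_le F)
      _ = 9 ^ F.card := by rw [pow_mul]; norm_num
  calc (P.card : ℝ) ≤ ((Fintype.card α - v).factorial : ℝ) * ((Rset F EH (verts F) ∅ id).card : ℝ) := by
        exact_mod_cast hcount
    _ ≤ ((Fintype.card α - v).factorial : ℝ) * ((Fintype.card α : ℝ) ^ v * (96 * Λ * q) ^ F.card) := by
        apply mul_le_mul_of_nonneg_left hplace (by positivity)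
    _ = ((Fintype.card α : ℝ) ^ v * ((Fintype.card α - v).factorial : ℝ)) * (96 * Λ * q) ^ F.card := by ring
    _ ≤ (3 ^ v * ((Fintype.card α).factorial : ℝ)) * (96 * Λ * q) ^ F.card := by
        apply mul_le_mul_of_nonneg_right h3 (by positivity)
    _ ≤ (9 ^ F.card * ((Fintype.card α).factorial : ℝ)) * (96 * Λ * q) ^ F.card := by
        apply mul_le_mul_of_nonneg_right _ (by positivity)
        apply mul_le_mul_of_nonneg_right h3v (by positivity)
    _ = ((Fintype.card α).factorial : ℝ) * (864 * Λ * q) ^ F.card := by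
        have h9 : (864 * Λ * q) ^ F.card = 9 ^ F.card * (96 * Λ * q) ^ F.card := by
          rw [← mul_pow]
          congr 1
          ring
        rw [h9]
        ring

/-- The number of copies, counted through the stabilizer. -/
theorem card_copies_mul_stab (F EH : Finset (Sym2 α)) :
    ((orbit F).filter (· ⊆ EH)).card * (stab F).card =
      (Finset.univ.filter fun σ : Equiv.Perm α => F.image (Sym2.map σ) ⊆ EH).card := by
  classical
  have h := Finset.card_eq_sum_card_fiberwise
    (s := Finset.univ.filter fun σ : Equiv.Perm α => F.image (Sym2.map σ) ⊆ EH)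
    (t := (orbit F).filter (· ⊆ EH)) (f := fun σ : Equiv.Perm α => F.image (Sym2.map σ))
    (fun σ hσ => mem_filter.2 ⟨mem_image_of_mem _ (mem_univ σ), (mem_filter.1 hσ).2⟩)
  rw [h, Finset.sum_const_nat (m := (stab F).card)]
  intro j hj
  obtain ⟨hj1, hj2⟩ := mem_filter.1 hj
  obtain ⟨σ₀, _, rfl⟩ := mem_image.1 hj1
  rw [← card_fiber F σ₀]
  congr 1
  ext σ
  simp only [mem_filter, mem_univ, true_and]
  constructor
  · exact fun h => h.2
  · intro h
    exact ⟨by rw [h]; exact hj2, h⟩

/-- The bound on copies. -/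
theorem copies_bound {F EH : Finset (Sym2 α)} {q Λ : ℝ} (hq : 0 < q)
    (hE : ∀ J ⊆ EH, J.Nonempty → (1 / 2 : ℝ) ≤ ((orbit J).card : ℝ) * q ^ J.card)
    (hF : F ⊆ EH)
    (hn : 2 ≤ Fintype.card α) (hΛ1 : 1 ≤ Λ)
    (hΛ2 : ∀ E a : ℕ, (4:ℝ) ^ E ≤ 2 * (Fintype.card α : ℝ) ^ a → 2 * (E:ℝ) ≤ 1 + a * Λ) :
    (((orbit F).filter (· ⊆ EH)).card : ℝ) ≤ ((orbit F).card : ℝ) * (864 * Λ * q) ^ F.card := by
  classical
  by_cases hq1 : 16 * q < 1
  · have h1 := card_perms_le hq hq1 hE hF hn hΛ1 hΛ2
    rw [← card_copies_mul_stab, ← card_orbit_mul_stab F] at h1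
    push_cast at h1
    have hst : (0:ℝ) < (stab F).card := by
      have : 0 < (stab F).card := by
        apply card_pos.2
        refine ⟨1, mem_filter.2 ⟨mem_univ _, ?_⟩⟩
        simp
      exact_mod_cast this
    have h2 : (((orbit F).filter (· ⊆ EH)).card : ℝ) * ((stab F).card : ℝ) ≤
        (((orbit F).card : ℝ) * (864 * Λ * q) ^ F.card) * ((stab F).card : ℝ) := by
      calc _ ≤ _ := h1
        _ = _ := by ring
    exact le_of_mul_le_mul_right h2 hst
  · push Not at hq1
    have h1 : (1:ℝ) ≤ 864 * Λ * q := by nlinarith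
    have h2 : (1:ℝ) ≤ (864 * Λ * q) ^ F.card := one_le_pow₀ h1
    have h3 : (((orbit F).filter (· ⊆ EH)).card : ℝ) ≤ ((orbit F).card : ℝ) := by
      exact_mod_cast card_filter_le _ _
    have h4 : (0:ℝ) ≤ ((orbit F).card : ℝ) := by positivity
    nlinarith

end Vale.Agent.P064
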