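import Vale.Agent.P064.Core

set_option linter.unusedSectionVars false

/-!
The induction over blocks and the final count of copies.
-/

namespace Vale.Agent.P064

open Finset

variable {α : Type*} [Fintype α] [DecidableEq α]

theorem step_union {EF EH : Finset (Sym2 α)} {S T U : Finset α} {ψ : α → α} {K b m : ℝ}
    (hK : 0 ≤ K) (hTS : T ⊆ S) (hSU : Disjoint S U) (hm : 0 < m)
    (hR : ((Rset EF EH T U ψ).card : ℝ) ≤ m * K ^ (edgesIn EF T U).card)
    (hrest : ∀ φ', ((Rset EF EH (S \ T) (U ∪ T) φ').card : ℝ) ≤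
      (b / m) * K ^ (edgesIn EF (S \ T) (U ∪ T)).card) (hb : 0 ≤ b) :
    ((Rset EF EH S U ψ).card : ℝ) ≤ b * K ^ (edgesIn EF S U).card := by
  classical
  have hsplit := Rset_subset_biUnion_block EF EH hTS hSU ψ
  have hchain := card_edgesIn_union EF (T₁ := T) (T₂ := S \ T) (U := U) disjoint_sdiff
    (Finset.disjoint_of_subset_left sdiff_subset hSU)
  rw [union_sdiff_of_subset hTS] at hchain
  calc ((Rset EF EH S U ψ).card : ℝ)
      ≤ (((Rset EF EH T U ψ).biUnion fun φ' => Rset EF EH (S \ T) (U ∪ T) φ').card : ℝ) := by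
        exact_mod_cast card_le_card hsplit
    _ ≤ ∑ φ' ∈ Rset EF EH T U ψ, ((Rset EF EH (S \ T) (U ∪ T) φ').card : ℝ) := by
        exact_mod_cast card_biUnion_le
    _ ≤ ∑ _φ' ∈ Rset EF EH T U ψ, ((b / m) * K ^ (edgesIn EF (S \ T) (U ∪ T)).card) :=
        Finset.sum_le_sum fun φ' _ => hrest φ'
    _ = ((Rset EF EH T U ψ).card : ℝ) * ((b / m) * K ^ (edgesIn EF (S \ T) (U ∪ T)).card) := by
        rw [Finset.sum_const, nsmul_eq_mul]
    _ ≤ (m * K ^ (edgesIn EF T U).card) * ((b / m) * K ^ (edgesIn EF (S \ T) (U ∪ T)).card) := by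
        apply mul_le_mul_of_nonneg_right hR
        positivity
    _ = b * K ^ (edgesIn EF S U).card := by
        rw [hchain, pow_add]
        field_simp

/-- The induction over blocks. -/
theorem blocks {EF EH : Finset (Sym2 α)} {q Λ : ℝ} (hq : 0 < q) (hq1 : 16 * q < 1)
    (hE : ∀ J ⊆ EH, J.Nonempty → (1 / 2 : ℝ) ≤ ((orbit J).card : ℝ) * q ^ J.card)
    (hn : 2 ≤ Fintype.card α) (hΛ1 : 1 ≤ Λ)
    (hΛ2 : ∀ E a : ℕ, (4:ℝ) ^ E ≤ 2 * (Fintype.card α : ℝ) ^ a → 2 * (E:ℝ) ≤ 1 + a * Λ) :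
    ∀ (k : ℕ) (S U : Finset α) (ψ : α → α) (b : ℝ), S.card = k → Disjoint S U →
      (∀ C ⊆ S, Mw EF (16 * q) (S \ C) (U ∪ C) ≤ b) →
      ((Rset EF EH S U ψ).card : ℝ) ≤ b * (6 * Λ) ^ (edgesIn EF S U).card := by
  classical
  intro k
  induction k using Nat.strong_induction_on with
  | _ k ih =>
    intro S U ψ b hk hSU hb
    have hr : (0:ℝ) < 16 * q := by positivity
    have hnpos : 0 < Fintype.card α := by omega
    have hΛ0 : (0:ℝ) < Λ := by linarith
    have hK0 : (0:ℝ) ≤ 6 * Λ := by positivity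
    have hK1 : (1:ℝ) ≤ 6 * Λ := by linarith
    have hbpos : 0 < b := lt_of_lt_of_le (Mw_pos EF hr hnpos _ _) (hb ∅ (empty_subset _))
    rcases S.eq_empty_or_nonempty with hS0 | hSne
    · subst hS0
      have h1 := card_Rset_empty_le EF EH U ψ
      have h2 := hb ∅ (Subset.refl _)
      have h3 : edgesIn EF (∅ : Finset α) U = ∅ := by
        ext e
        simp [mem_edgesIn]
      have h4 : edgesIn EF (∅ \ ∅ : Finset α) (U ∪ ∅) = ∅ := by
        ext e
        simp [mem_edgesIn]
      unfold Mw at h2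
      rw [h4] at h2
      simp only [sdiff_self, bot_eq_empty, card_empty, pow_zero, mul_one] at h2
      rw [h3]
      simp only [card_empty, pow_zero, mul_one]
      have h5 : ((Rset EF EH ∅ U ψ).card : ℝ) ≤ 1 := by exact_mod_cast h1
      linarith
    -- the block of minimal weight and then minimal size
    set cand := S.powerset.filter (fun C => C.Nonempty) with hcand
    have hcandne : cand.Nonempty := ⟨S, mem_filter.2 ⟨mem_powerset.2 (Subset.refl _), hSne⟩⟩
    obtain ⟨T₀, hT₀, hT₀min⟩ := Finset.exists_min_image cand (fun C => Mw EF (16 * q) C U) hcandne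
    set cand2 := cand.filter (fun C => Mw EF (16 * q) C U ≤ Mw EF (16 * q) T₀ U) with hcand2
    have hcand2ne : cand2.Nonempty := ⟨T₀, mem_filter.2 ⟨hT₀, le_refl _⟩⟩
    obtain ⟨T, hTmem, hTmin⟩ := Finset.exists_min_image cand2 Finset.card hcand2ne
    obtain ⟨hTcand, hTle⟩ := mem_filter.1 hTmem
    obtain ⟨hTS', hTne⟩ := mem_filter.1 hTcand
    have hTS : T ⊆ S := mem_powerset.1 hTS'
    have hTU : Disjoint T U := Finset.disjoint_of_subset_left hTS hSU
    have hMmin : ∀ C ⊆ S, C.Nonempty → Mw EF (16 * q) T U ≤ Mw EF (16 * q) C U := by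
      intro C hC hne
      exact hTle.trans (hT₀min C (mem_filter.2 ⟨mem_powerset.2 hC, hne⟩))
    have hstrict : ∀ C ⊆ T, C.Nonempty → C ≠ T → Mw EF (16 * q) T U < Mw EF (16 * q) C U := by
      intro C hC hne hCT
      by_contra hcon
      push Not at hcon
      have hC2 : C ∈ cand2 :=
        mem_filter.2 ⟨mem_filter.2 ⟨mem_powerset.2 (hC.trans hTS), hne⟩, hcon.trans hTle⟩
      have h1 := hTmin C hC2
      have h2 : C.card < T.card := card_lt_card (Finset.ssubset_iff_subset_ne.2 ⟨hC, hCT⟩)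
      omega
    have hcard : (S \ T).card < k := by
      rw [card_sdiff_of_subset hTS, hk]
      have h1 : 0 < T.card := card_pos.2 hTne
      have h2 : T.card ≤ S.card := card_le_card hTS
      omega
    have hdisj' : Disjoint (S \ T) (U ∪ T) := by
      rw [Finset.disjoint_left]
      intro x hx hx'
      obtain ⟨hxS, hxT⟩ := mem_sdiff.1 hx
      rcases mem_union.1 hx' with h | h
      · exact (Finset.disjoint_left.1 hSU hxS) h
      · exact hxT h
    have hrew : ∀ C' ⊆ S \ T, (S \ T) \ C' = S \ (T ∪ C') ∧ (U ∪ T) ∪ C' = U ∪ (T ∪ C') := by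
      intro C' _
      constructor
      · ext x
        simp only [mem_sdiff, mem_union]
        tauto
      · rw [union_assoc]
    have hDsub : ∀ C' ⊆ S \ T, T ∪ C' ⊆ S := fun C' hC' =>
      union_subset hTS (hC'.trans sdiff_subset)
    by_cases hM : Mw EF (16 * q) T U ≤ 1
    · -- rigid block
      have hP : ∀ C ⊆ T, C.Nonempty → Mw EF (16 * q) C (U ∪ (T \ C)) ≤ 1 := by
        intro C hC hne
        by_cases hCT : C = T
        · subst hCT
          simpa using hM
        · exact (P_of_min hr hnpos hTU hstrict C hC hne hCT).le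
      obtain ⟨hrig1, hrig2⟩ := rigid (EF := EF) (EH := EH) hq hq1 hE hn hΛ1 hΛ2 T.card T U ψ rfl hTU hP
      have hRT : ((Rset EF EH T U ψ).card : ℝ) ≤ 1 * (6 * Λ) ^ (edgesIn EF T U).card := by
        rw [one_mul]
        by_cases hne : (Rset EF EH T U ψ).Nonempty
        · calc ((Rset EF EH T U ψ).card : ℝ) ≤ Λ ^ T.card := hrig1
            _ ≤ Λ ^ (edgesIn EF T U).card := pow_le_pow_right₀ hΛ1 (hrig2 hne)
            _ ≤ (6 * Λ) ^ (edgesIn EF T U).card :=
              pow_le_pow_left₀ hΛ0.le (by linarith) _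
        · rw [not_nonempty_iff_eq_empty.1 hne]
          simp only [card_empty, Nat.cast_zero]
          positivity
      apply step_union hK0 hTS hSU one_pos hRT _ hbpos.le
      intro φ'
      rw [div_one]
      apply ih _ hcard (S \ T) (U ∪ T) φ' b rfl hdisj'
      intro C' hC'
      obtain ⟨h1, h2⟩ := hrew C' hC'
      rw [h1, h2]
      exact hb _ (hDsub C' hC')
    · -- block of weight above one
      push Not at hM
      have hMpos : 0 < Mw EF (16 * q) T U := by linarith
      have hRT := core (EF := EF) (EH := EH) hq hq1 hE hn hΛ1 hΛ2 hTU hTne hstrict hM ψ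
      apply step_union hK0 hTS hSU hMpos hRT _ hbpos.le
      intro φ'
      apply ih _ hcard (S \ T) (U ∪ T) φ' _ rfl hdisj'
      intro C' hC'
      obtain ⟨h1, h2⟩ := hrew C' hC'
      rw [h1, h2, le_div_iff₀ hMpos]
      have hD := hDsub C' hC'
      have hDne : (T ∪ C').Nonempty := hTne.mono subset_union_left
      have h3 := hMmin _ hD hDne
      have h4 := Mw_union EF (16 * q) (T₁ := T ∪ C') (T₂ := S \ (T ∪ C')) (U := U) disjoint_sdiff
        (Finset.disjoint_of_subset_left sdiff_subset hSU)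
      rw [union_sdiff_of_subset hD] at h4
      have h5 := hb ∅ (empty_subset _)
      simp only [sdiff_empty, union_empty] at h5
      have h6 : 0 < Mw EF (16 * q) (S \ (T ∪ C')) (U ∪ (T ∪ C')) := Mw_pos EF hr hnpos _ _
      calc Mw EF (16 * q) (S \ (T ∪ C')) (U ∪ (T ∪ C')) * Mw EF (16 * q) T U
          ≤ Mw EF (16 * q) (S \ (T ∪ C')) (U ∪ (T ∪ C')) * Mw EF (16 * q) (T ∪ C') U :=
            mul_le_mul_of_nonneg_left h3 h6.le
        _ = Mw EF (16 * q) S U := by rw [h4]; ring
        _ ≤ b := h5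

/-- The vertices touched by an edge set. -/
def verts (F : Finset (Sym2 α)) : Finset α := F.biUnion fun e => e.toFinset

theorem mem_verts {F : Finset (Sym2 α)} {v : α} : v ∈ verts F ↔ ∃ e ∈ F, v ∈ e := by
  simp [verts]

theorem card_verts_le (F : Finset (Sym2 α)) : (verts F).card ≤ 2 * F.card := by
  refine card_biUnion_le.trans ?_
  calc ∑ e ∈ F, e.toFinset.card ≤ ∑ _e ∈ F, 2 := by
        apply Finset.sum_le_sum
        intro e _
        induction e using Sym2.ind with
        | _ a b =>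
          rw [Sym2.toFinset_mk_eq]
          exact card_le_two
    _ = 2 * F.card := by simp [mul_comm]

theorem edgesIn_verts (F : Finset (Sym2 α)) : edgesIn F (verts F) ∅ = F := by
  ext e
  rw [mem_edgesIn]
  constructor
  · exact fun h => h.1
  · intro he
    refine ⟨he, ?_, fun v hv => Or.inl (mem_verts.2 ⟨e, he, hv⟩)⟩
    induction e using Sym2.ind with
    | _ a b => exact ⟨a, by simp, mem_verts.2 ⟨_, he, by simp⟩⟩

/-- Weights of parts given nothing are at least one. -/
theorem Mw_empty_ge_one {F EH : Finset (Sym2 α)} {q : ℝ} (hq : 0 < q)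
    (hE : ∀ J ⊆ EH, J.Nonempty → (1 / 2 : ℝ) ≤ ((orbit J).card : ℝ) * q ^ J.card)
    (hF : F ⊆ EH) (hn : 1 ≤ Fintype.card α) (C : Finset α) :
    1 ≤ Mw F (16 * q) C ∅ := by
  have hn1 : (1:ℝ) ≤ Fintype.card α := by exact_mod_cast hn
  unfold Mw
  rcases (edgesIn F C ∅).eq_empty_or_nonempty with h0 | hne
  · rw [h0]
    simpa using one_le_pow₀ hn1
  · have hsub : edgesIn F C ∅ ⊆ EH := fun e he => hF (mem_edgesIn.1 he).1
    have h := ker_bound hq hE hsub hne C (by
      intro e he v hv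
      obtain ⟨_, _, hall⟩ := mem_edgesIn.1 he
      rcases hall v hv with h | h
      · exact h
      · simp at h)
    rw [mul_pow]
    have h16 : (16:ℝ) ≤ 16 ^ (edgesIn F C ∅).card := by
      calc (16:ℝ) = 16 ^ 1 := (pow_one _).symm
        _ ≤ _ := pow_le_pow_right₀ (by norm_num) (card_pos.2 hne)
    nlinarith

/-- The count of placements of `F` into `EH`. -/
theorem placements_bound {F EH : Finset (Sym2 α)} {q Λ : ℝ} (hq : 0 < q) (hq1 : 16 * q < 1)
    (hE : ∀ J ⊆ EH, J.Nonempty → (1 / 2 : ℝ) ≤ ((orbit J).card : ℝ) * q ^ J.card)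
    (hF : F ⊆ EH)
    (hn : 2 ≤ Fintype.card α) (hΛ1 : 1 ≤ Λ)
    (hΛ2 : ∀ E a : ℕ, (4:ℝ) ^ E ≤ 2 * (Fintype.card α : ℝ) ^ a → 2 * (E:ℝ) ≤ 1 + a * Λ) :
    ((Rset F EH (verts F) ∅ id).card : ℝ) ≤
      (Fintype.card α : ℝ) ^ (verts F).card * (96 * Λ * q) ^ F.card := by
  have hb : ∀ C ⊆ verts F, Mw F (16 * q) (verts F \ C) (∅ ∪ C) ≤ Mw F (16 * q) (verts F) ∅ := by
    intro C hC
    have h1 := Mw_union F (16 * q) (T₁ := C) (T₂ := verts F \ C) (U := ∅) disjoint_sdiff
      (by simp)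
    rw [union_sdiff_of_subset hC] at h1
    rw [h1]
    have hr : (0:ℝ) < 16 * q := by positivity
    have h2 := Mw_empty_ge_one hq hE hF (by omega) C
    have h3 := Mw_pos F hr (by omega : 0 < Fintype.card α) (verts F \ C) (∅ ∪ C)
    nlinarith
  have h := blocks (EF := F) (EH := EH) hq hq1 hE hn hΛ1 hΛ2 _ (verts F) ∅ id _ rfl (by simp) hb
  rw [edgesIn_verts] at h
  refine h.trans (le_of_eq ?_)
  unfold Mw
  rw [edgesIn_verts, mul_assoc, ← mul_pow]
  congr 2
  ring

end Vale.Agent.P064
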