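import Vale.Agent.P064.Basic

set_option linter.unusedSectionVars false

/-!
Orbit-stabilizer bookkeeping and the bound coming from a family of petals.
-/

namespace Vale.Agent.P064

open Finset

variable {α : Type*} [Fintype α] [DecidableEq α]

/-- The orbit of an edge set under all permutations of the vertex set. -/
def orbit (J : Finset (Sym2 α)) : Finset (Finset (Sym2 α)) :=
  Finset.univ.image fun σ : Equiv.Perm α => J.image (Sym2.map σ)

/-- The stabilizer of an edge set. -/
def stab (J : Finset (Sym2 α)) : Finset (Equiv.Perm α) :=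
  Finset.univ.filter fun σ : Equiv.Perm α => J.image (Sym2.map σ) = J

theorem image_image_perm (J : Finset (Sym2 α)) (σ τ : Equiv.Perm α) :
    (J.image (Sym2.map τ)).image (Sym2.map σ) = J.image (Sym2.map (σ * τ)) := by
  rw [Finset.image_image]
  congr 1
  funext e
  simp only [Function.comp]
  rw [Sym2.map_map]
  rfl

theorem card_fiber (J : Finset (Sym2 α)) (σ₀ : Equiv.Perm α) :
    (Finset.univ.filter fun σ : Equiv.Perm α =>
      J.image (Sym2.map σ) = J.image (Sym2.map σ₀)).card = (stab J).card := by
  apply Finset.card_bij' (fun σ _ => σ₀⁻¹ * σ) (fun ρ _ => σ₀ * ρ)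
  · intro σ hσ
    have hσ' : J.image (Sym2.map σ) = J.image (Sym2.map σ₀) := (mem_filter.1 hσ).2
    refine mem_filter.2 ⟨mem_univ _, ?_⟩
    rw [← image_image_perm, hσ', image_image_perm]
    simp
  · intro ρ hρ
    have hρ' : J.image (Sym2.map ρ) = J := (mem_filter.1 hρ).2
    refine mem_filter.2 ⟨mem_univ _, ?_⟩
    rw [← image_image_perm, hρ']
  · intro σ _; simp
  · intro ρ _; simp

theorem card_orbit_mul_stab (J : Finset (Sym2 α)) :
    (orbit J).card * (stab J).card = (Fintype.card α).factorial := by
  have h := Finset.card_eq_sum_card_fiberwise (s := (Finset.univ : Finset (Equiv.Perm α)))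
    (t := orbit J) (f := fun σ : Equiv.Perm α => J.image (Sym2.map σ))
    (fun σ _ => mem_image_of_mem _ (mem_univ σ))
  rw [Finset.card_univ, Fintype.card_perm] at h
  rw [h, Finset.sum_const_nat (m := (stab J).card)]
  intro j hj
  obtain ⟨σ₀, _, rfl⟩ := mem_image.1 hj
  exact card_fiber J σ₀

/-- The bound from a family of petals: `t` maps `Φ i` which are injective on `T` with pairwise
disjoint images, agreeing on the other endpoints of `EE`, which go to `A0`. -/
theorem petal_bound {ι : Type*} [Fintype ι] [DecidableEq ι]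
    (T A0 : Finset α) (hT : T.Nonempty) (Φ : ι → α → α) (EE : Finset (Sym2 α))
    (hinj : ∀ i j, ∀ x ∈ T, ∀ y ∈ T, Φ i x = Φ j y → i = j ∧ x = y)
    (hA0 : ∀ i, ∀ x ∈ T, Φ i x ∉ A0)
    (hoff : ∀ e ∈ EE, ∀ v ∈ e, v ∉ T → (∀ i, Φ i v ∈ A0) ∧ ∀ i j, Φ i v = Φ j v) :
    (orbit (Finset.univ.biUnion fun i => EE.image (Sym2.map (Φ i)))).card *
        (Fintype.card ι).factorial ≤
      Fintype.card α ^ (A0.card + Fintype.card ι * T.card) := by
  classical
  set J := Finset.univ.biUnion fun i => EE.image (Sym2.map (Φ i)) with hJdef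
  set Y : Finset α := A0 ∪ (Finset.univ : Finset (ι × T)).image (fun p => Φ p.1 p.2) with hY
  have hYcard : Y.card ≤ A0.card + Fintype.card ι * T.card := by
    refine (card_union_le _ _).trans ?_
    have : ((Finset.univ : Finset (ι × T)).image (fun p => Φ p.1 p.2)).card
        ≤ Fintype.card ι * T.card := by
      refine Finset.card_image_le.trans ?_
      simp [Finset.card_univ]
    omega
  -- the embedding
  let γ : (ι × T) ⊕ {x // x ∉ Y} → α := Sum.elim (fun p => Φ p.1 p.2) Subtype.val
  have hγ : Function.Injective γ := by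
    rintro (⟨i, x⟩ | x) (⟨j, y⟩ | y) h
    · simp only [γ, Sum.elim_inl] at h
      obtain ⟨h1, h2⟩ := hinj i j x x.2 y y.2 h
      subst h1
      have : x = y := Subtype.ext h2
      rw [this]
    · exfalso
      simp only [γ, Sum.elim_inl, Sum.elim_inr] at h
      apply y.2
      rw [← h, hY]
      exact mem_union_right _ (mem_image_of_mem _ (mem_univ (i, x)))
    · exfalso
      simp only [γ, Sum.elim_inl, Sum.elim_inr] at h
      apply x.2
      rw [h, hY]
      exact mem_union_right _ (mem_image_of_mem _ (mem_univ (j, y)))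
    · simp only [γ, Sum.elim_inr] at h
      rw [Subtype.ext h]
  let γe : (ι × T) ⊕ {x // x ∉ Y} ↪ α := ⟨γ, hγ⟩
  let gmap : Equiv.Perm ι × Equiv.Perm {x // x ∉ Y} → Equiv.Perm α := fun p =>
    Equiv.Perm.viaEmbedding (Equiv.sumCongr (Equiv.prodCongr p.1 (Equiv.refl T)) p.2 : Equiv.Perm ((ι × T) ⊕ {x // x ∉ Y})) γe
  have hg1 : ∀ p i, ∀ x (hx : x ∈ T), gmap p (Φ i x) = Φ (p.1 i) x := by
    intro p i x hx
    have : gmap p (γe (Sum.inl (i, ⟨x, hx⟩))) = γe (Equiv.sumCongr (Equiv.prodCongr p.1 (Equiv.refl T)) p.2 (Sum.inl (i, ⟨x, hx⟩))) :=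
      Equiv.Perm.viaEmbedding_apply _ _ _
    simpa [γe, γ] using this
  have hg2 : ∀ p, ∀ a ∈ A0, gmap p a = a := by
    intro p a ha
    apply Equiv.Perm.viaEmbedding_apply_of_notMem
    rintro ⟨(⟨i, x⟩ | x), h⟩
    · apply hA0 i x x.2
      have h' : Φ i x = a := h
      rw [h']; exact ha
    · apply x.2
      have h' : (x : α) = a := h
      rw [h', hY]
      exact mem_union_left _ ha
  have hgmem : ∀ p, gmap p ∈ stab J := by
    intro p
    refine mem_filter.2 ⟨mem_univ _, ?_⟩
    have hsub : J.image (Sym2.map (gmap p)) ⊆ J := by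
      intro f hf
      obtain ⟨f', hf', rfl⟩ := mem_image.1 hf
      obtain ⟨i, -, hi⟩ := mem_biUnion.1 hf'
      obtain ⟨e, he, rfl⟩ := mem_image.1 hi
      refine mem_biUnion.2 ⟨p.1 i, mem_univ _, mem_image.2 ⟨e, he, ?_⟩⟩
      rw [Sym2.map_map]
      apply Sym2.map_congr
      intro v hv
      simp only [Function.comp]
      by_cases hvT : v ∈ T
      · exact (hg1 p i v hvT).symm
      · obtain ⟨h1, h2⟩ := hoff e he v hv hvT
        rw [hg2 p _ (h1 i)]
        exact h2 _ _
    apply Finset.eq_of_subset_of_card_le hsub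
    rw [Finset.card_image_of_injective _ (Sym2.map.injective (gmap p).injective)]
  have hginj : Function.Injective gmap := by
    rintro ⟨π, ρ⟩ ⟨π', ρ'⟩ h
    obtain ⟨x₀, hx₀⟩ := hT
    have h0 : Equiv.sumCongr (Equiv.prodCongr π (Equiv.refl T)) ρ =
        Equiv.sumCongr (Equiv.prodCongr π' (Equiv.refl T)) ρ' :=
      Equiv.Perm.viaEmbeddingHom_injective γe h
    have h1 : π = π' := by
      ext i
      have := DFunLike.congr_fun h0 (Sum.inl (i, ⟨x₀, hx₀⟩))
      simp only [Equiv.sumCongr_apply, Sum.map_inl, Equiv.prodCongr_apply, Prod.map,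
        Equiv.refl_apply, Sum.inl.injEq, Prod.mk.injEq, and_true] at this
      rw [this]
    have h2 : ρ = ρ' := by
      ext y
      have := DFunLike.congr_fun h0 (Sum.inr y)
      simp only [Equiv.sumCongr_apply, Sum.map_inr, Sum.inr.injEq] at this
      rw [this]
    rw [h1, h2]
  -- counting
  have hstab : (Fintype.card ι).factorial * (Fintype.card α - Y.card).factorial ≤ (stab J).card := by
    have h := Finset.card_le_card_of_injOn (s := (Finset.univ : Finset (Equiv.Perm ι × Equiv.Perm {x // x ∉ Y})))
      (t := stab J) gmap (fun p _ => hgmem p) (hginj.injOn)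
    rw [Finset.card_univ, Fintype.card_prod, Fintype.card_perm, Fintype.card_perm] at h
    have hc : Fintype.card {x // x ∉ Y} = Fintype.card α - Y.card := by
      rw [Fintype.card_subtype_compl]
      simp
    rwa [hc] at h
  have hYle : Y.card ≤ Fintype.card α := Finset.card_le_univ Y
  have hfac := Nat.factorial_mul_descFactorial hYle
  have horb := card_orbit_mul_stab J
  have hmain : (orbit J).card * (Fintype.card ι).factorial * (Fintype.card α - Y.card).factorial
      ≤ (Fintype.card α).descFactorial Y.card * (Fintype.card α - Y.card).factorial := by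
    calc (orbit J).card * (Fintype.card ι).factorial * (Fintype.card α - Y.card).factorial
        = (orbit J).card * ((Fintype.card ι).factorial * (Fintype.card α - Y.card).factorial) := by ring
      _ ≤ (orbit J).card * (stab J).card := Nat.mul_le_mul_left _ hstab
      _ = (Fintype.card α).factorial := horb
      _ = (Fintype.card α).descFactorial Y.card * (Fintype.card α - Y.card).factorial := by
          rw [← hfac]; ring
  have h3 : (orbit J).card * (Fintype.card ι).factorial ≤ (Fintype.card α).descFactorial Y.card :=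
    Nat.le_of_mul_le_mul_right hmain (Nat.factorial_pos _)
  refine h3.trans ((Nat.descFactorial_le_pow _ _).trans ?_)
  apply Nat.pow_le_pow_right _ hYcard
  exact Fintype.card_pos_iff.2 ⟨hT.choose⟩

end Vale.Agent.P064
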