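import Vale.Agent.P064.Orbit

set_option linter.unusedSectionVars false

/-!
The rigid case: if every nonempty part of `T` has weight at most one given the rest, then the
placements of `T` are confined to a small closure, and there are few of them.
-/

namespace Vale.Agent.P064

open Finset

variable {α : Type*} [Fintype α] [DecidableEq α]

/-- Consequence of the orbit hypothesis for an edge set inside a vertex set. -/
theorem ker_bound {EH : Finset (Sym2 α)} {q : ℝ} (hq : 0 < q)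
    (hE : ∀ J ⊆ EH, J.Nonempty → (1 / 2 : ℝ) ≤ ((orbit J).card : ℝ) * q ^ J.card)
    {J : Finset (Sym2 α)} (hJ : J ⊆ EH) (hJne : J.Nonempty) (Y : Finset α)
    (hY : ∀ e ∈ J, ∀ v ∈ e, v ∈ Y) :
    (1 / 2 : ℝ) ≤ (Fintype.card α : ℝ) ^ Y.card * q ^ J.card := by
  have hYne : Y.Nonempty := by
    obtain ⟨e, he⟩ := hJne
    induction e using Sym2.ind with
    | _ a b => exact ⟨a, hY _ he a (by simp)⟩
  have h := petal_bound (ι := Unit) Y ∅ hYne (fun _ => id) J
    (fun i j x _ y _ hxy => ⟨rfl, hxy⟩) (fun _ _ _ => by simp)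
    (fun e he v hv hvY => absurd (hY e he v hv) hvY)
  have hJJ : (Finset.univ.biUnion fun _ : Unit => J.image (Sym2.map id)) = J := by
    ext e
    simp
  rw [hJJ] at h
  simp only [card_empty, Fintype.card_unit, Nat.factorial_one, mul_one, zero_add, one_mul] at h
  have h1 := hE J hJ hJne
  have h2 : ((orbit J).card : ℝ) ≤ (Fintype.card α : ℝ) ^ Y.card := by exact_mod_cast h
  calc (1 / 2 : ℝ) ≤ ((orbit J).card : ℝ) * q ^ J.card := h1
    _ ≤ (Fintype.card α : ℝ) ^ Y.card * q ^ J.card := by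
      apply mul_le_mul_of_nonneg_right h2 (by positivity)

/-- A pair with an endpoint in `T` and another endpoint in `U`. -/
theorem attached_of_mem {EF : Finset (Sym2 α)} {T U : Finset α} (hTU : Disjoint T U) {e : Sym2 α}
    (he : e ∈ edgesIn EF T U) {y : α} (hy : y ∈ e) (hyU : y ∈ U) :
    ∃ u ∈ T, s(u, y) ∈ EF := by
  obtain ⟨heF, ⟨v, hv, hvT⟩, _⟩ := mem_edgesIn.1 he
  obtain ⟨w, rfl⟩ := hv
  rcases Sym2.mem_iff.1 hy with rfl | rfl
  · exact absurd hyU (Finset.disjoint_left.1 hTU hvT)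
  · exact ⟨v, hvT, heF⟩

/-- The placed edge lies in the closure's edge set. -/
theorem map_mem_edgesIn {EF EH : Finset (Sym2 α)} {T U Z AH : Finset α} {ψ φ : α → α}
    (hTU : Disjoint T U) (hφ : φ ∈ Rset EF EH T U ψ) (hZ : ∀ w ∈ T, φ w ∈ Z)
    (hAH : ∀ y ∈ U, ∀ u ∈ T, s(u, y) ∈ EF → ψ y ∈ AH)
    {e : Sym2 α} (he : e ∈ edgesIn EF T U) : Sym2.map φ e ∈ edgesIn EH Z AH := by
  obtain ⟨h1, h2, h3⟩ := mem_Rset.1 hφ
  obtain ⟨heF, ⟨v, hv, hvT⟩, hall⟩ := mem_edgesIn.1 he
  refine mem_edgesIn.2 ⟨h3 e he, ⟨φ v, Sym2.mem_map.2 ⟨v, hv, rfl⟩, hZ v hvT⟩, ?_⟩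
  intro w hw
  obtain ⟨x, hx, rfl⟩ := Sym2.mem_map.1 hw
  rcases hall x hx with hxT | hxU
  · exact Or.inl (hZ x hxT)
  · right
    obtain ⟨u, hu, hux⟩ := attached_of_mem hTU he hx hxU
    rw [h1 x (fun h => (Finset.disjoint_left.1 hTU h) hxU)]
    exact hAH x hxU u hu hux

/-- The closure contains the image of every placement. -/
theorem closure_contains {EF EH : Finset (Sym2 α)} {q : ℝ} (hq : 0 < q) (hq1 : 4 * q < 1)
    (hn : 2 ≤ Fintype.card α) {T U Z AH : Finset α} {ψ φ : α → α} (hTU : Disjoint T U)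
    (hP : ∀ C ⊆ T, C.Nonempty → Mw EF (16 * q) C (U ∪ (T \ C)) ≤ 1)
    (hφ : φ ∈ Rset EF EH T U ψ)
    (hAH : ∀ y ∈ U, ∀ u ∈ T, s(u, y) ∈ EF → ψ y ∈ AH)
    (hAHU : ∀ a ∈ AH, ∃ y ∈ U, ψ y = a)
    (hZAH : Disjoint Z AH)
    (hmin : ∀ Z', Disjoint Z' AH → Mw EH (4 * q) Z AH ≤ Mw EH (4 * q) Z' AH) :
    ∀ w ∈ T, φ w ∈ Z := by
  classical
  obtain ⟨h1, h2, h3⟩ := mem_Rset.1 hφ
  by_contra hcon
  push Not at hcon
  obtain ⟨w₀, hw₀, hw₀Z⟩ := hcon
  set C := T.filter fun w => φ w ∉ Z with hC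
  have hCne : C.Nonempty := ⟨w₀, mem_filter.2 ⟨hw₀, hw₀Z⟩⟩
  have hCT : C ⊆ T := filter_subset _ _
  have hnR : (0:ℝ) < Fintype.card α := by exact_mod_cast (by omega : 0 < Fintype.card α)
  have hn2R : (2:ℝ) ≤ Fintype.card α := by exact_mod_cast hn
  have hφinjT : Set.InjOn φ (↑C : Set α) := h2.mono (by
    intro x hx
    simp only [coe_union, Set.mem_union, mem_coe] at hx ⊢
    exact Or.inr (hCT hx))
  have hφU : ∀ y ∈ U, φ y = ψ y := fun y hy => h1 y (fun h => (Finset.disjoint_left.1 hTU h) hy)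
  -- images of `T` avoid `AH`
  have hφAH : ∀ w ∈ T, φ w ∉ AH := by
    intro w hw hwA
    obtain ⟨y, hy, hyw⟩ := hAHU _ hwA
    have : w = y := by
      apply h2
      · simp [hw]
      · simp [hy]
      · rw [hφU y hy, hyw]
    subst this
    exact (Finset.disjoint_left.1 hTU hw) hy
  set Z' := Z ∪ C.image φ with hZ'
  have hZ'AH : Disjoint Z' AH := by
    rw [hZ', Finset.disjoint_union_left]
    refine ⟨hZAH, ?_⟩
    rw [Finset.disjoint_left]
    intro a ha
    obtain ⟨w, hw, rfl⟩ := mem_image.1 ha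
    exact hφAH w (hCT hw)
  have hdisjZC : Disjoint Z (C.image φ) := by
    rw [Finset.disjoint_left]
    intro a haZ ha
    obtain ⟨w, hw, rfl⟩ := mem_image.1 ha
    exact (mem_filter.1 hw).2 haZ
  have hcardZ' : Z'.card = Z.card + C.card := by
    rw [hZ', card_union_of_disjoint hdisjZC, card_image_of_injOn hφinjT]
  set EC := edgesIn EF C (U ∪ (T \ C)) with hEC
  -- the edges
  have hEsub : edgesIn EH Z AH ∪ EC.image (Sym2.map φ) ⊆ edgesIn EH Z' AH := by
    intro f hf
    rcases mem_union.1 hf with hf | hf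
    · obtain ⟨hfH, ⟨v, hv, hvZ⟩, hall⟩ := mem_edgesIn.1 hf
      refine mem_edgesIn.2 ⟨hfH, ⟨v, hv, mem_union_left _ hvZ⟩, fun w hw => ?_⟩
      rcases hall w hw with h | h
      · exact Or.inl (mem_union_left _ h)
      · exact Or.inr h
    · obtain ⟨e, he, rfl⟩ := mem_image.1 hf
      obtain ⟨heF, ⟨v, hv, hvC⟩, hall⟩ := mem_edgesIn.1 he
      have heT : e ∈ edgesIn EF T U := by
        refine mem_edgesIn.2 ⟨heF, ⟨v, hv, hCT hvC⟩, fun w hw => ?_⟩
        rcases hall w hw with h | h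
        · exact Or.inl (hCT h)
        · rcases mem_union.1 h with h' | h'
          · exact Or.inr h'
          · exact Or.inl (mem_sdiff.1 h').1
      refine mem_edgesIn.2 ⟨h3 e heT, ⟨φ v, Sym2.mem_map.2 ⟨v, hv, rfl⟩,
        mem_union_right _ (mem_image_of_mem _ hvC)⟩, fun w hw => ?_⟩
      obtain ⟨x, hx, rfl⟩ := Sym2.mem_map.1 hw
      obtain ⟨_, _, hall'⟩ := mem_edgesIn.1 heT
      rcases hall' x hx with hxT | hxU
      · left
        by_cases hxC : x ∈ C
        · exact mem_union_right _ (mem_image_of_mem _ hxC)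
        · apply mem_union_left
          by_contra hcon
          exact hxC (mem_filter.2 ⟨hxT, hcon⟩)
      · right
        obtain ⟨u, hu, hux⟩ := attached_of_mem hTU heT hx hxU
        rw [hφU x hxU]
        exact hAH x hxU u hu hux
  have hEdisj : Disjoint (edgesIn EH Z AH) (EC.image (Sym2.map φ)) := by
    rw [Finset.disjoint_left]
    intro f hf hf'
    obtain ⟨e, he, rfl⟩ := mem_image.1 hf'
    obtain ⟨_, ⟨v, hv, hvC⟩, _⟩ := mem_edgesIn.1 he
    obtain ⟨_, _, hall⟩ := mem_edgesIn.1 hf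
    rcases hall (φ v) (Sym2.mem_map.2 ⟨v, hv, rfl⟩) with h | h
    · exact (mem_filter.1 hvC).2 h
    · exact hφAH v (hCT hvC) h
  have hECinj : (EC.image (Sym2.map φ)).card = EC.card := by
    apply card_image_of_injOn
    intro e he e' he' hee
    have hsub : ∀ f ∈ EC, ∀ v ∈ f, v ∈ (↑(U ∪ T) : Set α) := by
      intro f hf v hv
      obtain ⟨_, _, hall⟩ := mem_edgesIn.1 hf
      simp only [coe_union, Set.mem_union, mem_coe]
      rcases hall v hv with h | h
      · exact Or.inr (hCT h)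
      · rcases mem_union.1 h with h' | h'
        · exact Or.inl h'
        · exact Or.inr (mem_sdiff.1 h').1
    exact sym2_map_injOn h2 (hsub e he) (hsub e' he') hee
  have hEcard : (edgesIn EH Z AH).card + EC.card ≤ (edgesIn EH Z' AH).card := by
    rw [← hECinj, ← card_union_of_disjoint hEdisj]
    exact card_le_card hEsub
  -- the weights
  have hmin' := hmin Z' hZ'AH
  unfold Mw at hmin'
  rw [hcardZ'] at hmin'
  have hq4 : (0:ℝ) < 4 * q := by positivity
  have hpow : (4 * q) ^ (edgesIn EH Z' AH).card ≤ (4 * q) ^ ((edgesIn EH Z AH).card + EC.card) :=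
    pow_le_pow_of_le_one hq4.le hq1.le hEcard
  have hX : 1 ≤ (Fintype.card α : ℝ) ^ C.card * (4 * q) ^ EC.card := by
    have hpos : 0 < (Fintype.card α : ℝ) ^ Z.card * (4 * q) ^ (edgesIn EH Z AH).card := by positivity
    have h5 : (Fintype.card α : ℝ) ^ Z.card * (4 * q) ^ (edgesIn EH Z AH).card * 1 ≤
        (Fintype.card α : ℝ) ^ Z.card * (4 * q) ^ (edgesIn EH Z AH).card *
          ((Fintype.card α : ℝ) ^ C.card * (4 * q) ^ EC.card) := by
      calc _ = (Fintype.card α : ℝ) ^ Z.card * (4 * q) ^ (edgesIn EH Z AH).card := by ring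
        _ ≤ (Fintype.card α : ℝ) ^ (Z.card + C.card) * (4 * q) ^ (edgesIn EH Z' AH).card := hmin'
        _ ≤ (Fintype.card α : ℝ) ^ (Z.card + C.card) * (4 * q) ^ ((edgesIn EH Z AH).card + EC.card) := by
            apply mul_le_mul_of_nonneg_left hpow (by positivity)
        _ = _ := by rw [pow_add, pow_add]; ring
    exact le_of_mul_le_mul_left h5 hpos
  have hPC := hP C hCT hCne
  unfold Mw at hPC
  rw [← hEC] at hPC
  have h16 : (Fintype.card α : ℝ) ^ C.card * (16 * q) ^ EC.card =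
      4 ^ EC.card * ((Fintype.card α : ℝ) ^ C.card * (4 * q) ^ EC.card) := by
    have : (16 * q) = 4 * (4 * q) := by ring
    rw [this, mul_pow]; ring
  rw [h16] at hPC
  rcases Nat.eq_zero_or_pos EC.card with h0 | hpos
  · rw [h0] at hPC hX
    simp only [pow_zero, one_mul, mul_one] at hPC
    have : (2:ℝ) ≤ (Fintype.card α : ℝ) ^ C.card := by
      calc (2:ℝ) ≤ (Fintype.card α : ℝ) := hn2R
        _ = (Fintype.card α : ℝ) ^ 1 := (pow_one _).symm
        _ ≤ _ := pow_le_pow_right₀ (by linarith) (card_pos.2 hCne)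
    linarith
  · have h4 : (4:ℝ) ≤ 4 ^ EC.card := by
      calc (4:ℝ) = 4 ^ 1 := (pow_one _).symm
        _ ≤ _ := pow_le_pow_right₀ (by norm_num) hpos
    nlinarith

/-- The closure has few edges. -/
theorem closure_edges {EH : Finset (Sym2 α)} {q : ℝ} (hq : 0 < q)
    (hE : ∀ J ⊆ EH, J.Nonempty → (1 / 2 : ℝ) ≤ ((orbit J).card : ℝ) * q ^ J.card)
    (hn : 2 ≤ Fintype.card α) {Z AH : Finset α} (hZAH : Disjoint Z AH)
    (hZ1 : Mw EH (4 * q) Z AH ≤ 1) :
    (4:ℝ) ^ (edgesIn EH Z AH).card ≤ 2 * (Fintype.card α : ℝ) ^ AH.card := by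
  have hn1 : (1:ℝ) ≤ Fintype.card α := by exact_mod_cast (by omega : 1 ≤ Fintype.card α)
  rcases (edgesIn EH Z AH).eq_empty_or_nonempty with h0 | hne
  · rw [h0]
    have : (1:ℝ) ≤ (Fintype.card α : ℝ) ^ AH.card := one_le_pow₀ hn1
    simp only [card_empty, pow_zero]
    linarith
  · have hsub : edgesIn EH Z AH ⊆ EH := fun e he => (mem_edgesIn.1 he).1
    have h := ker_bound hq hE hsub hne (Z ∪ AH) (by
      intro e he v hv
      obtain ⟨_, _, hall⟩ := mem_edgesIn.1 he
      rcases hall v hv with h | h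
      · exact mem_union_left _ h
      · exact mem_union_right _ h)
    rw [card_union_of_disjoint hZAH, pow_add] at h
    unfold Mw at hZ1
    rw [mul_pow] at hZ1
    set E := (edgesIn EH Z AH).card with hE'
    have hnz : (0:ℝ) ≤ (Fintype.card α : ℝ) ^ AH.card := by positivity
    have h4 : (0:ℝ) < 4 ^ E := by positivity
    have : (4:ℝ) ^ E * (1 / 2) ≤ 4 ^ E * ((Fintype.card α : ℝ) ^ Z.card * (Fintype.card α : ℝ) ^ AH.card * q ^ E) :=
      mul_le_mul_of_nonneg_left h h4.le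
    have h6 : (4:ℝ) ^ E * ((Fintype.card α : ℝ) ^ Z.card * (Fintype.card α : ℝ) ^ AH.card * q ^ E) =
        ((Fintype.card α : ℝ) ^ Z.card * (4 ^ E * q ^ E)) * (Fintype.card α : ℝ) ^ AH.card := by ring
    rw [h6] at this
    have h7 : ((Fintype.card α : ℝ) ^ Z.card * (4 ^ E * q ^ E)) * (Fintype.card α : ℝ) ^ AH.card ≤
        1 * (Fintype.card α : ℝ) ^ AH.card := mul_le_mul_of_nonneg_right hZ1 hnz
    linarith

/-- Double counting between attachments and closure vertices. -/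
theorem sum_nbrs_le {EH : Finset (Sym2 α)} {Z A : Finset α} {ψ : α → α}
    (hψ : Set.InjOn ψ (↑A : Set α)) (hZ : Disjoint Z (A.image ψ)) :
    ∑ y ∈ A, (Z.filter fun x => s(x, ψ y) ∈ EH).card ≤ (edgesIn EH Z (A.image ψ)).card := by
  classical
  rw [← Finset.card_sigma]
  apply Finset.card_le_card_of_injOn (fun p => s(p.2, ψ p.1))
  · rintro ⟨y, x⟩ hp
    have hp' := Finset.mem_sigma.1 (Finset.mem_coe.1 hp)
    obtain ⟨hy, hx⟩ := hp'
    obtain ⟨hxZ, hxE⟩ := mem_filter.1 hx
    simp only at hy hxZ hxE ⊢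
    refine Finset.mem_coe.2 (mem_edgesIn.2 ⟨hxE, ⟨x, by simp, hxZ⟩, fun w hw => ?_⟩)
    rcases Sym2.mem_iff.1 hw with rfl | rfl
    · exact Or.inl hxZ
    · exact Or.inr (mem_image_of_mem _ hy)
  · rintro ⟨y, x⟩ hp ⟨y', x'⟩ hp' h
    have hp1 := Finset.mem_sigma.1 (Finset.mem_coe.1 hp)
    have hp2 := Finset.mem_sigma.1 (Finset.mem_coe.1 hp')
    obtain ⟨hy, hx⟩ := hp1
    obtain ⟨hy', hx'⟩ := hp2
    obtain ⟨hxZ, _⟩ := mem_filter.1 hx
    obtain ⟨hxZ', _⟩ := mem_filter.1 hx'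
    simp only at hy hy' hxZ hxZ' h
    rcases Sym2.eq_iff.1 h with ⟨h1, h2⟩ | ⟨h1, h2⟩
    · have : y = y' := hψ (Finset.mem_coe.2 hy) (Finset.mem_coe.2 hy') h2
      subst this
      subst h1
      rfl
    · exfalso
      apply Finset.disjoint_left.1 hZ hxZ
      rw [h1]
      exact mem_image_of_mem _ hy'

/-- Passing `P` to a one-vertex-smaller problem. -/
theorem hered_P {EF : Finset (Sym2 α)} {r : ℝ} {T U : Finset α} {u : α} (hu : u ∈ T)
    (hP : ∀ C ⊆ T, C.Nonempty → Mw EF r C (U ∪ (T \ C)) ≤ 1) :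
    ∀ C ⊆ T \ {u}, C.Nonempty → Mw EF r C ((U ∪ {u}) ∪ ((T \ {u}) \ C)) ≤ 1 := by
  intro C hC hne
  have hCT : C ⊆ T := hC.trans sdiff_subset
  have : (U ∪ {u}) ∪ ((T \ {u}) \ C) = U ∪ (T \ C) := by
    ext x
    simp only [mem_union, mem_singleton, mem_sdiff]
    by_cases hxu : x = u
    · subst hxu
      have hxC : x ∉ C := fun h => (mem_sdiff.1 (hC h)).2 (by simp)
      simp [hu, hxC]
    · simp [hxu]
  rw [this]
  exact hP C hCT hne

theorem disjoint_sdiff_union {T U : Finset α} {u : α} (hTU : Disjoint T U) :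
    Disjoint (T \ {u}) (U ∪ {u}) := by
  rw [Finset.disjoint_left]
  intro x hx hx'
  obtain ⟨hxT, hxu⟩ := mem_sdiff.1 hx
  rcases mem_union.1 hx' with h | h
  · exact (Finset.disjoint_left.1 hTU hxT) h
  · exact hxu h

theorem insert_split {T : Finset α} {u : α} (hu : u ∈ T) : ({u} : Finset α) ∪ (T \ {u}) = T := by
  ext x
  simp only [mem_union, mem_singleton, mem_sdiff]
  by_cases h : x = u
  · subst h; simp [hu]
  · simp [h]

/-- Chain rule with a single vertex removed. -/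
theorem card_edgesIn_split (EF : Finset (Sym2 α)) {T U : Finset α} {u : α} (hu : u ∈ T)
    (hTU : Disjoint T U) :
    (edgesIn EF T U).card = (edgesIn EF {u} U).card + (edgesIn EF (T \ {u}) (U ∪ {u})).card := by
  have h := card_edgesIn_union EF (T₁ := {u}) (T₂ := T \ {u}) (U := U) (by simp)
    (Finset.disjoint_of_subset_left sdiff_subset hTU)
  rwa [insert_split hu] at h

/-- The rigid case. -/
theorem rigid {EF EH : Finset (Sym2 α)} {q Λ : ℝ} (hq : 0 < q) (hq1 : 16 * q < 1)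
    (hE : ∀ J ⊆ EH, J.Nonempty → (1 / 2 : ℝ) ≤ ((orbit J).card : ℝ) * q ^ J.card)
    (hn : 2 ≤ Fintype.card α) (hΛ1 : 1 ≤ Λ)
    (hΛ2 : ∀ E a : ℕ, (4:ℝ) ^ E ≤ 2 * (Fintype.card α : ℝ) ^ a → 2 * (E:ℝ) ≤ 1 + a * Λ) :
    ∀ (k : ℕ) (T U : Finset α) (ψ : α → α), T.card = k → Disjoint T U →
      (∀ C ⊆ T, C.Nonempty → Mw EF (16 * q) C (U ∪ (T \ C)) ≤ 1) →
      ((Rset EF EH T U ψ).card : ℝ) ≤ Λ ^ T.card ∧
        ((Rset EF EH T U ψ).Nonempty → T.card ≤ (edgesIn EF T U).card) := by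
  classical
  intro k
  induction k with
  | zero =>
    intro T U ψ hk hTU hP
    have hT : T = ∅ := card_eq_zero.1 hk
    subst hT
    refine ⟨?_, fun _ => by simp⟩
    have := card_Rset_empty_le EF EH U ψ
    simp only [card_empty, pow_zero]
    exact_mod_cast this
  | succ k ih =>
    intro T U ψ hk hTU hP
    have hΛ0 : (0:ℝ) ≤ Λ := by linarith
    by_cases hne : (Rset EF EH T U ψ).Nonempty
    swap
    · rw [not_nonempty_iff_eq_empty.1 hne]
      simp only [card_empty, Nat.cast_zero]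
      exact ⟨by positivity, fun h => absurd h (by simp)⟩
    obtain ⟨φ₀, hφ₀⟩ := hne
    have hφ₀' := mem_Rset.1 hφ₀
    obtain ⟨h01, h02, h03⟩ := hφ₀'
    have hTne : T.Nonempty := by
      rw [← card_pos]; omega
    set A := U.filter fun y => ∃ u ∈ T, s(u, y) ∈ EF with hA
    set AH := A.image ψ with hAHdef
    have hφ₀U : ∀ y ∈ U, φ₀ y = ψ y := fun y hy =>
      h01 y (fun h => (Finset.disjoint_left.1 hTU h) hy)
    have hψinj : Set.InjOn ψ (↑A : Set α) := by
      intro a ha b hb hab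
      have ha' : a ∈ U := (mem_filter.1 (mem_coe.1 ha)).1
      have hb' : b ∈ U := (mem_filter.1 (mem_coe.1 hb)).1
      apply h02
      · simp [ha']
      · simp [hb']
      · rw [hφ₀U a ha', hφ₀U b hb', hab]
    have hAHcard : AH.card = A.card := card_image_of_injOn hψinj
    have hAH : ∀ y ∈ U, ∀ u ∈ T, s(u, y) ∈ EF → ψ y ∈ AH := by
      intro y hy u hu hux
      exact mem_image_of_mem _ (mem_filter.2 ⟨hy, u, hu, hux⟩)
    have hAHU : ∀ a ∈ AH, ∃ y ∈ U, ψ y = a := by
      intro a ha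
      obtain ⟨y, hy, rfl⟩ := mem_image.1 ha
      exact ⟨y, (mem_filter.1 hy).1, rfl⟩
    -- the minimizer
    have hexZ : ∃ Z ∈ (Finset.univ : Finset (Finset α)).filter (fun Z => Disjoint Z AH),
        ∀ Z' ∈ (Finset.univ : Finset (Finset α)).filter (fun Z => Disjoint Z AH),
          Mw EH (4 * q) Z AH ≤ Mw EH (4 * q) Z' AH :=
      Finset.exists_min_image _ _ ⟨∅, by simp⟩
    obtain ⟨Z, hZmem, hZmin⟩ := hexZ
    have hZAH : Disjoint Z AH := (mem_filter.1 hZmem).2
    have hmin : ∀ Z', Disjoint Z' AH → Mw EH (4 * q) Z AH ≤ Mw EH (4 * q) Z' AH :=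
      fun Z' hZ' => hZmin Z' (mem_filter.2 ⟨mem_univ _, hZ'⟩)
    have hZ1 : Mw EH (4 * q) Z AH ≤ 1 := by
      have := hmin ∅ (by simp)
      have h0 : Mw EH (4 * q) ∅ AH = 1 := by
        unfold Mw
        have : edgesIn EH ∅ AH = ∅ := by
          ext e
          simp [mem_edgesIn]
        simp [this]
      linarith
    have hq4 : 4 * q < 1 := by linarith
    have hcont : ∀ φ ∈ Rset EF EH T U ψ, ∀ w ∈ T, φ w ∈ Z := fun φ hφ =>
      closure_contains hq hq4 hn hTU hP hφ hAH hAHU hZAH hmin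
    have hEbd := closure_edges hq hE hn hZAH hZ1
    have h2E := hΛ2 _ _ hEbd
    rw [hAHcard] at h2E
    rcases A.eq_empty_or_nonempty with hA0 | hAne
    · -- no attachments: contradiction
      exfalso
      have hAH0 : AH = ∅ := by rw [hAHdef, hA0, image_empty]
      have hEbd' := hEbd
      rw [hAH0] at hEbd'
      simp only [card_empty, pow_zero, mul_one] at hEbd'
      have hE0 : (edgesIn EH Z ∅).card = 0 := by
        by_contra h
        have h4 : (4:ℝ) ≤ 4 ^ (edgesIn EH Z ∅).card := by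
          calc (4:ℝ) = 4 ^ 1 := (pow_one _).symm
            _ ≤ _ := pow_le_pow_right₀ (by norm_num) (Nat.pos_of_ne_zero h)
        linarith
      have hPT := hP T (Subset.refl _) hTne
      simp only [sdiff_self, bot_eq_empty, union_empty] at hPT
      unfold Mw at hPT
      have hn2R : (2:ℝ) ≤ Fintype.card α := by exact_mod_cast hn
      have hec : (edgesIn EF T U).card ≠ 0 := by
        intro h0
        rw [h0] at hPT
        simp only [pow_zero, mul_one] at hPT
        have : (2:ℝ) ≤ (Fintype.card α : ℝ) ^ T.card := by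
          calc (2:ℝ) ≤ (Fintype.card α : ℝ) := hn2R
            _ = (Fintype.card α : ℝ) ^ 1 := (pow_one _).symm
            _ ≤ _ := pow_le_pow_right₀ (by linarith) (card_pos.2 hTne)
        linarith
      obtain ⟨e, he⟩ := card_pos.1 (Nat.pos_of_ne_zero hec)
      have hmem := map_mem_edgesIn hTU hφ₀ (hcont φ₀ hφ₀) hAH he
      rw [hAH0] at hmem
      rw [card_eq_zero.1 hE0] at hmem
      simp at hmem
    · -- a thin attachment exists
      have haR : (1:ℝ) ≤ A.card := by exact_mod_cast card_pos.2 hAne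
      have hEle : ((edgesIn EH Z AH).card : ℝ) ≤ A.card * Λ := by
        have : (1:ℝ) ≤ A.card * Λ := by nlinarith
        linarith
      have hdis : Disjoint Z (A.image ψ) := hZAH
      have hsum := sum_nbrs_le (EH := EH) hψinj hdis
      have hsumR : ∑ y ∈ A, ((Z.filter fun x => s(x, ψ y) ∈ EH).card : ℝ) ≤ ∑ _y ∈ A, Λ := by
        rw [Finset.sum_const, nsmul_eq_mul]
        refine le_trans ?_ hEle
        exact_mod_cast hsum
      obtain ⟨y, hyA, hyΛ⟩ := Finset.exists_le_of_sum_le hAne hsumR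
      obtain ⟨hyU, u, hu, huy⟩ := mem_filter.1 hyA
      set N := Z.filter fun x => s(x, ψ y) ∈ EH with hN
      have huyE : s(u, y) ∈ edgesIn EF T U := by
        refine mem_edgesIn.2 ⟨huy, ⟨u, by simp, hu⟩, fun w hw => ?_⟩
        rcases Sym2.mem_iff.1 hw with rfl | rfl
        · exact Or.inl hu
        · exact Or.inr hyU
      have hNmem : ∀ φ ∈ Rset EF EH T U ψ, φ u ∈ N := by
        intro φ hφ
        obtain ⟨h1, h2, h3⟩ := mem_Rset.1 hφ
        refine mem_filter.2 ⟨hcont φ hφ u hu, ?_⟩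
        have := h3 _ huyE
        rw [Sym2.map_mk] at this
        rwa [h1 y (fun h => (Finset.disjoint_left.1 hTU h) hyU)] at this
      have hsplit := Rset_subset_biUnion_fix EF EH U ψ hu N hNmem
      have hcardT : (T \ {u}).card = k := by
        rw [card_sdiff_of_subset (singleton_subset_iff.2 hu)]
        simp; omega
      have hsub := fun x => ih (T \ {u}) (U ∪ {u}) (Function.update ψ u x) hcardT
        (disjoint_sdiff_union hTU) (hered_P hu hP)
      constructor
      · calc ((Rset EF EH T U ψ).card : ℝ)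
            ≤ ((N.biUnion fun x => Rset EF EH (T \ {u}) (U ∪ {u}) (Function.update ψ u x)).card : ℝ) := by
              exact_mod_cast card_le_card hsplit
          _ ≤ ∑ x ∈ N, ((Rset EF EH (T \ {u}) (U ∪ {u}) (Function.update ψ u x)).card : ℝ) := by
              exact_mod_cast card_biUnion_le
          _ ≤ ∑ _x ∈ N, Λ ^ k := by
              apply Finset.sum_le_sum
              intro x _
              have := (hsub x).1
              rwa [hcardT] at this
          _ = (N.card : ℝ) * Λ ^ k := by rw [Finset.sum_const, nsmul_eq_mul]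
          _ ≤ Λ * Λ ^ k := mul_le_mul_of_nonneg_right hyΛ (by positivity)
          _ = Λ ^ T.card := by rw [hk]; ring
      · intro _
        have h1 := (hsub (φ₀ u)).2 ⟨φ₀, mem_Rset_fix hu hφ₀⟩
        rw [hcardT] at h1
        have h2 := card_edgesIn_split EF hu hTU
        have h3 : 1 ≤ (edgesIn EF {u} U).card := by
          apply card_pos.2
          refine ⟨s(u, y), mem_edgesIn.2 ⟨huy, ⟨u, by simp, by simp⟩, fun w hw => ?_⟩⟩
          rcases Sym2.mem_iff.1 hw with rfl | rfl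
          · exact Or.inl (by simp)
          · exact Or.inr hyU
        omega

end Vale.Agent.P064
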